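import Vale.Agent.P280.H127.EdgeA
import Vale.Agent.P280.H939.Trans
import Vale.Agent.P280.H939.Fin2

/-!
P280 (T4): the curve through an isolated source in the direction of a weight vector which is the
value of a field; the opposite field does not kill `f` in this direction.
-/

open DirectSum Vale.Agent.P280.T Vale.Agent.P280.H644 Vale.Agent.P280.H939

namespace Vale.Agent.P280.H127

variable {M : Type} [AddCommGroup M] [DecidableEq M] {R : Type} [CommRing R] [Algebra ℂ R]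
variable {𝒜 : ℕ × M → Submodule ℂ R} [GradedAlgebra 𝒜]

omit [DecidableEq M] [GradedAlgebra 𝒜] in
theorem iterate_mem_wt {e : Derivation ℂ R R} {χ : M}
    (he : ∀ (d : ℕ) (m : M), ∀ h ∈ 𝒜 (d, m), e h ∈ 𝒜 (d, m - χ)) {d : ℕ} {m : M} {h : R}
    (hh : h ∈ 𝒜 (d, m)) (k : ℕ) : (⇑(e : R →ₗ[ℂ] R))^[k] h ∈ 𝒜 (d, m - k • χ) := by
  induction k with
  | zero => rw [zero_smul, sub_zero]; exact hh
  | succ k ih =>
    rw [Function.iterate_succ_apply', succ_nsmul, ← sub_sub]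
    exact he d _ _ ih

/-- the point `exp e` applied to `p` -/
theorem exists_curve_point (hX : IsTorusManifold 𝒜) {l : M →+ ℤ} {p : R →ₐ[ℂ] ℂ} {μ χ : M}
    (hp : IsFixed 𝒜 p μ) (hl : 0 < l χ) {e : Derivation ℂ R R}
    (he : ∀ (d : ℕ) (m : M), ∀ h ∈ 𝒜 (d, m), e h ∈ 𝒜 (d, m - χ)) :
    ∃ z : R →ₐ[ℂ] ℂ, (∀ (d : ℕ) (m : M), ∀ h ∈ 𝒜 (d, m), z h ≠ 0 → ∃ k : ℕ, m = d • μ + k • χ) ∧
      (∀ d : ℕ, ∀ h ∈ 𝒜 (d, d • μ), z h = p h) ∧
      ∀ d : ℕ, ∀ h ∈ 𝒜 (d, d • μ + χ), z h = p (e h) := by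
  obtain ⟨F, -, hF⟩ := exists_flow (finite_deg hX) (D := e)
    (fun d m h hh => (le_iSup (fun m : M => 𝒜 (d, m)) (m - χ)) (he d m h hh))
  have hterm : ∀ (d : ℕ) (m : M), ∀ h ∈ 𝒜 (d, m), ∀ k : ℕ,
      p ((⇑(e : R →ₗ[ℂ] R))^[k] h) ≠ 0 → m = d • μ + k • χ := by
    intro d m h hh k hne
    rw [← hp d _ _ (iterate_mem_wt he hh k) hne]
    abel
  have hk : ∀ k k' : ℕ, k • χ = k' • χ → k = k' := by
    intro k k' h
    have h1 := congrArg l h
    rw [map_nsmul, map_nsmul, nsmul_eq_mul, nsmul_eq_mul] at h1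
    exact_mod_cast mul_right_cancel₀ hl.ne' h1
  have hsum : ∀ h : R, HasSum (fun k : ℕ => ((k.factorial : ℂ))⁻¹ *
      p ((⇑(e : R →ₗ[ℂ] R))^[k] h)) (p (F h)) := fun h => hF h p.toLinearMap
  refine ⟨p.comp (F : R →ₐ[ℂ] R), ?_, ?_, ?_⟩
  · intro d m h hh hne
    by_contra hcon
    apply hne
    have h1 : (fun k : ℕ => ((k.factorial : ℂ))⁻¹ * p ((⇑(e : R →ₗ[ℂ] R))^[k] h)) =
        fun _ => 0 := by
      funext k
      by_cases h0 : p ((⇑(e : R →ₗ[ℂ] R))^[k] h) = 0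
      · rw [h0, mul_zero]
      · exact absurd ⟨k, hterm d m h hh k h0⟩ hcon
    have h2 := hsum h
    rw [h1] at h2
    exact h2.unique hasSum_zero
  · intro d h hh
    have h1 := hasSum_single (f := fun k : ℕ => ((k.factorial : ℂ))⁻¹ *
      p ((⇑(e : R →ₗ[ℂ] R))^[k] h)) 0 (by
        intro k hk0
        by_cases h0 : p ((⇑(e : R →ₗ[ℂ] R))^[k] h) = 0
        · simp only [h0, mul_zero]
        · exfalso
          apply hk0
          have h2 := hterm d _ h hh k h0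
          refine hk k 0 ?_
          rw [zero_smul]
          exact left_eq_add.1 h2)
    have h3 := (hsum h).unique h1
    rw [Nat.factorial_zero, Nat.cast_one, inv_one, one_mul, Function.iterate_zero, id] at h3
    exact h3
  · intro d h hh
    have h1 := hasSum_single (f := fun k : ℕ => ((k.factorial : ℂ))⁻¹ *
      p ((⇑(e : R →ₗ[ℂ] R))^[k] h)) 1 (by
        intro k hk0
        by_cases h0 : p ((⇑(e : R →ₗ[ℂ] R))^[k] h) = 0
        · simp only [h0, mul_zero]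
        · exfalso
          apply hk0
          have h2 := hterm d _ h hh k h0
          refine hk k 1 ?_
          rw [one_smul]
          exact (add_left_cancel h2).symm)
    have h3 := (hsum h).unique h1
    rw [Nat.factorial_one, Nat.cast_one, inv_one, one_mul, Function.iterate_one] at h3
    exact h3

/-- **The curve argument.** If `e` is a field whose value `v` at `p` is a nonzero tangent vector of
weight `χ`, if `-χ` is liftable and if no tangent weight is `-w χ` with `w ≥ 2`, then there is a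
field `D` of weight `-χ` with `v (D f) ≠ 0`. -/
theorem curve (hX : IsTorusManifold 𝒜) {l : M →+ ℤ} {p : R →ₐ[ℂ] ℂ} {μ χ : M} {f : R}
    (hp : IsFixed 𝒜 p μ) (hf : f ∈ 𝒜 (1, μ)) (pf : p f = 1)
    (hl : 0 < l χ) {v : R →ₗ[ℂ] ℂ} (hv : IsTangent p v) (hw : HasWeight 𝒜 μ χ v) (hne : v ≠ 0)
    {e : Derivation ℂ R R} (he : ∀ (d : ℕ) (m : M), ∀ h ∈ 𝒜 (d, m), e h ∈ 𝒜 (d, m - χ))
    (hev : ∀ h, p (e h) = v h) (hlift : Liftable 𝒜 (-χ))
    (hno : ∀ (x : R →ₐ[ℂ] ℂ) (ν : M) (w : ℕ), 2 ≤ w → ¬ IsVertex 𝒜 x → IsFixed 𝒜 x ν →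
      ¬ TangentWeight 𝒜 x ν (-(w • χ))) :
    ∃ D : Derivation ℂ R R, (∀ (d : ℕ) (m : M), ∀ h ∈ 𝒜 (d, m), D h ∈ 𝒜 (d, m + χ)) ∧
      v (D f) ≠ 0 := by
  obtain ⟨z, hz, hz0, hz1⟩ := exists_curve_point hX hp hl he
  set s : ℤ := l χ with hs
  -- the top of `z`
  obtain ⟨b, hb⟩ := ((finite_weights hX).image (-l)).bddBelow
  have hzf : z f = 1 := by
    rw [hz0 1 f (by rw [one_smul]; exact hf), pf]
  obtain ⟨k0, ⟨ν, hνk, h0, hh0, hzh0⟩, hmin⟩ := Int.exists_least_of_bdd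
    (P := fun k => ∃ m, (-l) m = k ∧ ∃ h ∈ 𝒜 (1, m), z h ≠ 0)
    ⟨b, fun k ⟨m, hm, h, hh, hne⟩ => hm ▸ hb ⟨m, ⟨h, hh, fun h0 => hne (by rw [h0, map_zero])⟩,
      rfl⟩⟩ ⟨_, μ, rfl, f, hf, by rw [hzf]; exact one_ne_zero⟩
  have hlow : ∀ m, ∀ h ∈ 𝒜 (1, m), z h ≠ 0 → (-l) ν ≤ (-l) m := by
    intro m h hh hne
    rw [hνk]
    exact hmin _ ⟨m, rfl, h, hh, hne⟩
  have hα : Supp 𝒜 z (slopeHom (-l) ((-l) ν)) := by
    rintro ⟨d, m⟩ h hh hne
    have h1 := slope_le hX.gen (-l) ((-l) ν) (RingHom.ker z)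
      (fun m h hh hne => hlow m h hh fun h0 => hne h0) d m h hh (fun h0 => hne h0)
    rw [slopeHom_apply]
    linarith
  obtain ⟨K, hK⟩ := hz 1 ν h0 hh0 hzh0
  rw [one_smul] at hK
  -- `α` in terms of `k`
  have hαk : ∀ (d : ℕ) (k : ℤ), slopeHom (-l) ((-l) ν) (d, d • μ + k • χ) = s * (d * K - k) := by
    intro d k
    rw [slopeHom_apply, hK]
    simp only [AddMonoidHom.neg_apply, map_add, map_nsmul, map_zsmul, smul_neg, nsmul_eq_mul,
      zsmul_eq_mul, ← hs]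
    push_cast
    ring
  have hzk : ∀ (d : ℕ) (m : M), ∀ h ∈ 𝒜 (d, m), z h ≠ 0 → ∃ k : ℤ, m = d • μ + k • χ ∧ k ≤ d * K := by
    intro d m h hh hne'
    obtain ⟨k, hk⟩ := hz d m h hh hne'
    refine ⟨k, by rw [natCast_zsmul]; exact hk, ?_⟩
    have h1 := hα (d, m) h hh hne'
    rw [hk, ← natCast_zsmul χ k, hαk] at h1
    by_contra h2
    push Not at h2
    have h3 : s * (d * K - k) < 0 := mul_neg_of_pos_of_neg hl (by linarith)
    omega
  have hνd : ∀ (d : ℕ) (j : ℤ), d • ν - j • χ = d • μ + (d * K - j) • χ := by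
    intro d j
    rw [hK, smul_add, sub_smul, smul_smul]
    have : ((d : ℤ) * (K : ℤ)) • χ = (d * K) • χ := by
      rw [← Nat.cast_mul, natCast_zsmul]
    rw [this]
    abel
  have hK1 : 1 ≤ K := by
    obtain ⟨m, h, hh, hvh⟩ : ∃ m, ∃ h ∈ 𝒜 (1, m), v h ≠ 0 := by
      by_contra hcon
      push Not at hcon
      exact hne (LinearMap.ext fun b => H587.tangent_eq_zero hX hv hcon b)
    have hm := hw 1 m h hh hvh
    subst hm
    have h1 := hlow _ h hh (by rw [hz1 1 h hh, hev]; exact hvh)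
    rw [hK] at h1
    simp only [AddMonoidHom.neg_apply, map_add, map_nsmul, one_smul, nsmul_eq_mul, ← hs] at h1
    by_contra h2
    have h3 : K = 0 := by omega
    rw [h3] at h1
    push_cast at h1
    linarith
  have hχ0 : ∀ j : ℕ, 1 ≤ j → -(j • χ) ≠ 0 := by
    intro j hj h1
    have h2 := congrArg l (neg_eq_zero.1 h1)
    rw [map_nsmul, map_zero, nsmul_eq_mul, ← hs] at h2
    rcases mul_eq_zero.1 h2 with h | h
    · have : j = 0 := by exact_mod_cast h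
      omega
    · omega
  set α := slopeHom (-l) ((-l) ν) with hαdef
  have hx'm : ∀ i, ∀ h ∈ 𝒜 i, lim 𝒜 hα h = if α i = 0 then z h else 0 :=
    fun i h hh => lim_mem 𝒜 hα hh
  have hαν : α (1, ν) = 0 := by rw [hαdef, slopeHom_apply, one_smul, sub_self]
  have hx'0 : ¬ IsVertex 𝒜 (lim 𝒜 hα) := by
    intro hvx
    have h1 := hvx 1 ν one_pos h0 hh0
    rw [hx'm _ h0 hh0, if_pos hαν] at h1
    exact hzh0 h1
  have hx'f : IsFixed 𝒜 (lim 𝒜 hα) ν := by
    intro d m h hh hne'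
    rw [hx'm (d, m) h hh] at hne'
    by_cases h1 : α (d, m) = 0
    · rw [if_pos h1] at hne'
      obtain ⟨k, hk, -⟩ := hzk d m h hh hne'
      rw [hk, hαk] at h1
      have h2 : (k : ℤ) = d * K := by
        rcases mul_eq_zero.1 h1 with h | h
        · omega
        · linarith
      have h3 := hνd d 0
      rw [zero_smul, sub_zero, sub_zero] at h3
      rw [hk, h2, ← h3]
    · rw [if_neg h1] at hne'
      exact absurd rfl hne'
  -- the tangent vector of weight `-χ`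
  have hsC : (s : ℂ) ≠ 0 := by exact_mod_cast hl.ne'
  obtain ⟨δ0, hδ0⟩ := H587.exists_linearMap 𝒜
    (fun i : ℕ × M => ((α i : ℂ) * (s : ℂ)⁻¹) • z.toLinearMap)
  have hδ0' : ∀ i, ∀ h ∈ 𝒜 i, δ0 h = (α i : ℂ) * (s : ℂ)⁻¹ * z h := fun i h hh => by
    rw [hδ0 i h hh]; rfl
  have hδ0t : IsDer z δ0 := isDer_of_hom (𝒜 := 𝒜) fun i j a ha b hb => by
    rw [hδ0' _ _ (SetLike.mul_mem_graded ha hb), hδ0' _ _ ha, hδ0' _ _ hb, map_add, map_mul]
    push_cast
    ring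
  have hδ0k : ∀ (d : ℕ) (m : M), ∀ h ∈ 𝒜 (d, m), δ0 h ≠ 0 →
      ∃ k : ℤ, m = d • μ + k • χ ∧ k ≤ d * K - 1 := by
    intro d m h hh hne'
    rw [hδ0' _ h hh] at hne'
    obtain ⟨k, hk, hk'⟩ := hzk d m h hh (right_ne_zero_of_mul hne')
    refine ⟨k, hk, ?_⟩
    by_contra h1
    have h2 : k = d * K := by omega
    apply hne'
    rw [hk, hαk, h2, sub_self, mul_zero]
    push_cast
    ring
  have hlead0 : ∀ i, ∀ h ∈ 𝒜 i, δ0 h ≠ 0 → s ≤ α i := by
    rintro ⟨d, m⟩ h hh hne'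
    obtain ⟨k, hk, hk'⟩ := hδ0k d m h hh hne'
    rw [hk, hαk]
    nlinarith
  have hηt := isDer_lead 𝒜 hα hδ0t hlead0
  set η : R →ₗ[ℂ] ℂ := H644.tw 𝒜 fun i => if α i = s then δ0 else 0 with hη
  have hηm : ∀ i, ∀ h ∈ 𝒜 i, η h = if α i = s then δ0 h else 0 := by
    intro i h hh
    rw [hη, tw_mem 𝒜 _ hh]
    split_ifs <;> rfl
  have hηw : HasWeight 𝒜 ν (-χ) η := by
    intro d m h hh hne'
    rw [hηm (d, m) h hh] at hne'
    by_cases h1 : α (d, m) = s
    · rw [if_pos h1] at hne'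
      obtain ⟨k, hk, -⟩ := hδ0k d m h hh hne'
      rw [hk, hαk] at h1
      have h2 : (k : ℤ) = d * K - 1 := by
        have h3 : s * (d * K - k - 1) = 0 := by linarith
        rcases mul_eq_zero.1 h3 with h | h
        · omega
        · linarith
      have h3 := hνd d 1
      rw [one_smul] at h3
      rw [hk, h2, ← h3, sub_eq_add_neg]
    · rw [if_neg h1] at hne'
      exact absurd rfl hne'
  obtain ⟨D, hD, hDη⟩ : ∃ D : Derivation ℂ R R,
      (∀ (d : ℕ) (m : M), ∀ h ∈ 𝒜 (d, m), D h ∈ 𝒜 (d, m + χ)) ∧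
        ∀ h, lim 𝒜 hα (D h) = η h := by
    by_cases hη0 : η = 0
    · refine ⟨0, fun d m h hh => ?_, fun h => ?_⟩
      · rw [Derivation.zero_apply]
        exact Submodule.zero_mem _
      · rw [Derivation.zero_apply, map_zero, hη0]
        rfl
    · obtain ⟨D, h1, h2⟩ := hlift _ ν hx'0 hx'f
        (tangentWeight_of_ne hx'f (by have := hχ0 1 le_rfl; rwa [one_smul] at this) hηt hηw hη0)
        η hηt hηw
      refine ⟨D, fun d m h hh => ?_, h2⟩
      have h3 := h1 d m h hh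
      rwa [sub_neg_eq_add] at h3
  -- the difference
  set δ : R →ₗ[ℂ] ℂ := H93.valAt z D - δ0 with hδ
  have hδm : ∀ h, δ h = z (D h) - δ0 h := fun h => rfl
  have hδt : IsDer z δ := by
    intro a b
    have h1 := H93.isTangent_valAt z D a b
    have h2 := hδ0t a b
    rw [hδ, LinearMap.sub_apply, LinearMap.sub_apply, LinearMap.sub_apply, h1, h2]
    ring
  have hδ2 : ∀ (d : ℕ) (m : M), ∀ h ∈ 𝒜 (d, m), δ h ≠ 0 →
      ∃ j : ℕ, 2 ≤ j ∧ α (d, m) = s * j ∧ m = d • ν + -(j • χ) := by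
    intro d m h hh hne'
    obtain ⟨k, hk, hk'⟩ : ∃ k : ℤ, m = d • μ + k • χ ∧ k ≤ d * K - 1 := by
      by_cases h1 : z (D h) = 0
      · refine hδ0k d m h hh fun h2 => hne' ?_
        rw [hδm, h1, h2, sub_zero]
      · obtain ⟨k, hk, hk'⟩ := hzk d _ _ (hD d m h hh) h1
        refine ⟨k - 1, ?_, by omega⟩
        rw [sub_smul, one_smul, ← add_sub_assoc, ← hk, add_sub_cancel_right]
    obtain ⟨j, hj⟩ := Int.eq_ofNat_of_zero_le (a := d * K - k) (by omega)
    have hkj : k = d * K - j := by omega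
    have hαm : α (d, m) = s * j := by
      rw [hk, hαk, hkj]
      ring
    refine ⟨j, ?_, hαm, ?_⟩
    · by_contra h2
      have hj1 : j = 1 := by omega
      apply hne'
      have h3 : α (d, m) = s := by rw [hαm, hj1]; push_cast; ring
      have h4 : α (d, m + χ) = 0 := by
        have h5 : m + χ = d • μ + (k + 1) • χ := by
          rw [hk, add_smul, one_smul, add_assoc]
        rw [h5, hαk, hkj, hj1]
        push_cast
        ring
      have h6 := hDη h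
      rw [hx'm _ _ (hD d m h hh), if_pos h4, hηm _ h hh, if_pos h3] at h6
      rw [hδm, h6, sub_self]
    · have h3 := hνd d j
      rw [hk, hkj, ← h3, natCast_zsmul, sub_eq_add_neg]
  have hδz : δ = 0 := by
    by_contra hδne
    have hex : ∃ k : ℤ, ∃ i, ∃ h ∈ 𝒜 i, δ h ≠ 0 ∧ α i = k := by
      by_contra hcon
      apply hδne
      refine H644.ext_hom (𝒜 := 𝒜) fun i h hh => ?_
      by_contra h1
      exact hcon ⟨_, i, h, hh, h1, rfl⟩
    obtain ⟨k1, ⟨⟨d1, m1⟩, h1, hh1, hv1, hk1⟩, hmin1⟩ := Int.exists_least_of_bdd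
      (P := fun k => ∃ i, ∃ h ∈ 𝒜 i, δ h ≠ 0 ∧ α i = k)
      ⟨0, fun k ⟨i, h, hh, h1, h2⟩ => by
        obtain ⟨j, -, h3, -⟩ := hδ2 i.1 i.2 h hh h1
        rw [← h2]
        change 0 ≤ α (i.1, i.2)
        rw [h3]
        positivity⟩ hex
    have hk : ∀ i, ∀ h ∈ 𝒜 i, δ h ≠ 0 → k1 ≤ α i := fun i h hh h1 =>
      hmin1 _ ⟨i, h, hh, h1, rfl⟩
    have hτt := isDer_lead 𝒜 hα hδt hk
    obtain ⟨j, hj2, hj, -⟩ := hδ2 d1 m1 h1 hh1 hv1
    set τ : R →ₗ[ℂ] ℂ := H644.tw 𝒜 fun i => if α i = k1 then δ else 0 with hτ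
    have hτm : ∀ i, ∀ h ∈ 𝒜 i, τ h = if α i = k1 then δ h else 0 := by
      intro i h hh
      rw [hτ, tw_mem 𝒜 _ hh]
      split_ifs <;> rfl
    have hτw : HasWeight 𝒜 ν (-(j • χ)) τ := by
      intro d m h hh hne'
      rw [hτm (d, m) h hh] at hne'
      by_cases h2 : α (d, m) = k1
      · rw [if_pos h2] at hne'
        obtain ⟨j', -, h3, h4⟩ := hδ2 d m h hh hne'
        have h5 : (j' : ℤ) = j := by
          have h6 : s * j' = s * j := by rw [← h3, ← hj, h2, hk1]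
          exact mul_left_cancel₀ hl.ne' h6
        rw [h4, show j' = j by exact_mod_cast h5]
      · rw [if_neg h2] at hne'
        exact absurd rfl hne'
    have hτne : τ ≠ 0 := by
      intro h2
      have h3 := hτm _ h1 hh1
      rw [if_pos hk1, h2] at h3
      exact hv1 h3.symm
    exact hno _ ν j hj2 hx'0 hx'f (tangentWeight_of_ne hx'f (hχ0 j (by omega)) hτt hτw hτne)
  -- the value at `f`
  refine ⟨D, hD, ?_⟩
  have h1 : v (D f) = z (D f) := by
    rw [← hev, hz1 1 (D f) (by rw [one_smul]; exact hD 1 μ f hf)]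
  have h2 : z (D f) = δ0 f := by
    have h3 := hδm f
    rw [hδz, LinearMap.zero_apply] at h3
    exact (sub_eq_zero.1 h3.symm)
  have h4 : α (1, μ) = s * K := by
    have h5 := hαk 1 0
    rw [one_smul, zero_smul, add_zero, Nat.cast_one, one_mul, sub_zero] at h5
    exact h5
  rw [h1, h2, hδ0' _ f hf, h4, hzf, mul_one]
  push_cast
  rw [mul_comm (s : ℂ), mul_assoc, mul_inv_cancel₀ hsC, mul_one]
  have : K ≠ 0 := by omega
  exact_mod_cast this

end Vale.Agent.P280.H127
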