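import Vale.Agent.P280.H127.Transport
import Vale.Agent.P280.H587.Generic
import Vale.Agent.P280.H587.Ext

/-!
P280 (S7): limits of tangent vectors at the fixed points of a subtorus; fields from the lowest
component of a one-parameter group.
-/

open DirectSum Vale.Agent.P280.T Vale.Agent.P280.H644

namespace Vale.Agent.P280.H127

variable {M : Type} [AddCommGroup M] [DecidableEq M] {R : Type} [CommRing R] [Algebra ℂ R]
variable {𝒜 : ℕ × M → Submodule ℂ R} [GradedAlgebra 𝒜]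

/-- The support of a tangent vector is bounded below. -/
theorem tangent_bdd (hX : IsTorusManifold 𝒜) {g : M →+ ℤ} {γ : ℤ} {q : R →ₐ[ℂ] ℂ}
    (hq : ∀ m, ∀ h ∈ 𝒜 (1, m), q h ≠ 0 → γ ≤ g m) {v : R →ₗ[ℂ] ℂ} (hv : IsTangent q v) :
    ∃ k0 : ℤ, ∀ d m, ∀ h ∈ 𝒜 (d, m), v h ≠ 0 → k0 ≤ g m - d • γ := by
  obtain ⟨b, hb⟩ : ∃ b : ℤ, ∀ m, ∀ h ∈ 𝒜 (1, m), h ≠ 0 → b ≤ g m := by
    obtain ⟨b, hb⟩ := ((finite_weights hX).image g).bddBelow
    exact ⟨b, fun m h hh hne => hb ⟨m, ⟨h, hh, hne⟩, rfl⟩⟩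
  have hv1 : v 1 = 0 := by
    have h := hv 1 1
    rw [mul_one, map_one q, one_mul] at h
    linear_combination -h
  have hq' : ∀ d m, ∀ h ∈ 𝒜 (d, m), q h ≠ 0 → d • γ ≤ g m := fun d m h hh hne =>
    slope_le hX.gen g γ (RingHom.ker q) (fun m h hh hne => hq m h hh fun h0 => hne h0) d m h hh
      (fun h0 => hne h0)
  refine ⟨b - γ, ?_⟩
  have key : ∀ d m y, IsProd 𝒜 d m y → v y ≠ 0 → b - γ ≤ g m - d • γ := by
    intro d m y hy
    induction hy with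
    | one => intro h; exact absurd hv1 h
    | @mul d m w' y x hy hx ih =>
      intro hne
      rw [hv] at hne
      have hcase : (q y ≠ 0 ∧ v x ≠ 0) ∨ (q x ≠ 0 ∧ v y ≠ 0) := by
        by_contra hcon
        push Not at hcon
        apply hne
        have e1 : q y * v x = 0 := by
          by_cases h0 : q y = 0
          · rw [h0, zero_mul]
          · rw [hcon.1 h0, mul_zero]
        have e2 : q x * v y = 0 := by
          by_cases h0 : q x = 0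
          · rw [h0, zero_mul]
          · rw [hcon.2 h0, mul_zero]
        rw [e1, e2, add_zero]
      rw [map_add, add_smul, one_smul]
      rcases hcase with ⟨h1, h2⟩ | ⟨h1, h2⟩
      · have h3 := hq' d m y hy.mem h1
        have h4 := hb w' x hx fun h0 => h2 (by rw [h0, map_zero])
        linarith
      · have h3 := ih h2
        have h4 := hq w' x hx h1
        linarith
  intro d m h hh hne
  by_contra hlt
  apply hne
  have h2 := mem_span_isProd hX.gen hh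
  have h3 : Submodule.span ℂ {x | IsProd 𝒜 d m x} ≤ LinearMap.ker v := by
    apply Submodule.span_le.2
    intro x hx
    by_contra hxI
    exact hlt (key d m x hx fun h0 => hxI h0)
  exact h3 h2

/-- A point fixed by `l` with a tangent vector of `l`-weight `w` degenerates to a point fixed by
the torus with a tangent vector of weight `χ`, `l χ = w`. -/
theorem exists_fixed_limit (hX : IsTorusManifold 𝒜) {l g : M →+ ℤ}
    (hg : Set.InjOn g (H587.wts 𝒜)) {q : R →ₐ[ℂ] ℂ} {μ : ℤ} (hq : ¬ IsVertex 𝒜 q)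
    (hq' : IsFixed (H587.co 𝒜 l) q μ) {w : ℤ} {v : R →ₗ[ℂ] ℂ} (hv : IsTangent q v)
    (hvw : HasWeight (H587.co 𝒜 l) μ w v) (hne : v ≠ 0) :
    ∃ (y : R →ₐ[ℂ] ℂ) (ν χ : M) (v' : R →ₗ[ℂ] ℂ), ¬ IsVertex 𝒜 y ∧ IsFixed 𝒜 y ν ∧ l ν = μ ∧
      IsTangent y v' ∧ HasWeight 𝒜 ν χ v' ∧ l χ = w ∧ ∃ h ∈ 𝒜 (1, ν + χ), v' h ≠ 0 := by
  -- the lowest weight
  obtain ⟨m0, f0, hf0, hqf0⟩ := (not_isVertex_iff hX.gen q).1 hq
  obtain ⟨b, hb⟩ := ((finite_weights hX).image g).bddBelow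
  obtain ⟨k, ⟨ν, hνk, f, hf, hqf⟩, hmin⟩ := Int.exists_least_of_bdd
    (P := fun k => ∃ m, g m = k ∧ ∃ h ∈ 𝒜 (1, m), q h ≠ 0)
    ⟨b, fun k ⟨m, hm, h, hh, hne⟩ => hm ▸ hb ⟨m, ⟨h, hh, fun h0 => hne (by rw [h0, map_zero])⟩,
      rfl⟩⟩ ⟨_, m0, rfl, f0, hf0, hqf0⟩
  have hlow : ∀ m, ∀ h ∈ 𝒜 (1, m), q h ≠ 0 → g ν ≤ g m := by
    intro m h hh hne
    rw [hνk]
    exact hmin _ ⟨m, rfl, h, hh, hne⟩
  have hα : Supp 𝒜 q (slopeHom g (g ν)) := by
    rintro ⟨d, m⟩ h hh hne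
    have h1 := slope_le hX.gen g (g ν) (RingHom.ker q)
      (fun m h hh hne => hlow m h hh fun h0 => hne h0) d m h hh (fun h0 => hne h0)
    rw [slopeHom_apply]
    linarith
  have hy0 : ¬ IsVertex 𝒜 (lim 𝒜 hα) := by
    intro hv
    have h1 := hv 1 ν one_pos f hf
    rw [lim_mem 𝒜 hα hf, if_pos (by rw [slopeHom_apply, one_smul, sub_self])] at h1
    exact hqf h1
  have hy : IsFixed 𝒜 (lim 𝒜 hα) ν := by
    refine H587.isFixed_of_one hX fun m h hh hne => ?_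
    rw [lim_mem 𝒜 hα hh] at hne
    by_cases h1 : slopeHom g (g ν) (1, m) = 0
    · rw [if_pos h1] at hne
      rw [slopeHom_apply, one_smul] at h1
      exact hg ⟨h, hh, fun h0 => hne (by rw [h0, map_zero])⟩
        ⟨f, hf, fun h0 => hqf (by rw [h0, map_zero])⟩ (by linarith)
    · rw [if_neg h1] at hne
      exact absurd rfl hne
  have hlν : l ν = μ := by
    have h1 := hq' 1 (l ν) f (H587.mem_co hf) hqf
    rwa [one_smul] at h1
  -- the leading part of `v`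
  obtain ⟨k0, hk0⟩ := tangent_bdd hX hlow hv
  have hex : ∃ k : ℤ, ∃ i, ∃ h ∈ 𝒜 i, v h ≠ 0 ∧ slopeHom g (g ν) i = k := by
    by_contra hcon
    apply hne
    refine H644.ext_hom (𝒜 := 𝒜) fun i h hh => ?_
    by_contra h1
    exact hcon ⟨_, i, h, hh, h1, rfl⟩
  obtain ⟨k1, ⟨i1, h1, hh1, hv1, hk1⟩, hmin1⟩ := Int.exists_least_of_bdd
    (P := fun k => ∃ i, ∃ h ∈ 𝒜 i, v h ≠ 0 ∧ slopeHom g (g ν) i = k)
    ⟨k0, fun k ⟨i, h, hh, h1, h2⟩ => h2 ▸ hk0 i.1 i.2 h hh h1⟩ hex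
  have hk : ∀ i, ∀ h ∈ 𝒜 i, v h ≠ 0 → k1 ≤ slopeHom g (g ν) i := fun i h hh h1 =>
    hmin1 _ ⟨i, h, hh, h1, rfl⟩
  have hlead := isDer_lead 𝒜 hα hv hk
  set v1 : R →ₗ[ℂ] ℂ := H644.tw 𝒜 fun i => if slopeHom g (g ν) i = k1 then v else 0 with hv1def
  have hv1m : ∀ i, ∀ h ∈ 𝒜 i, v1 h = if slopeHom g (g ν) i = k1 then v h else 0 := by
    intro i h hh
    rw [hv1def, tw_mem 𝒜 _ hh]
    split_ifs <;> rfl
  have hne1 : ∃ m, ∃ h ∈ 𝒜 (1, m), v1 h ≠ 0 := by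
    by_contra hcon
    push Not at hcon
    have h2 := H587.tangent_eq_zero hX (x := lim 𝒜 hα) hlead hcon h1
    rw [hv1m i1 h1 hh1, if_pos hk1] at h2
    exact hv1 h2
  obtain ⟨m1, e, he, hve⟩ := hne1
  obtain ⟨v', hv', hvw', hvv'⟩ := H587.exists_component hy hlead (m1 - ν)
  have hm1 : m1 = (1 : ℕ) • ν + (m1 - ν) := by
    rw [one_smul]
    abel
  have hve' : v e ≠ 0 := by
    intro h0
    rw [hv1m _ e he, h0] at hve
    simp at hve
  have hw1 := hvw 1 (l m1) e (H587.mem_co he) hve'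
  refine ⟨lim 𝒜 hα, ν, m1 - ν, v', hy0, hy, hlν, hv', hvw', ?_, e, ?_, ?_⟩
  · rw [map_sub, hw1, one_smul, hlν]
    ring
  · rw [add_sub_cancel]
    exact he
  · rw [hvv' 1 m1 e he hm1]
    exact hve

/-- The weights of `l` at its fixed points are bounded by those at the fixed points of the
torus. -/
theorem weight_le_co (hX : IsTorusManifold 𝒜) {l g : M →+ ℤ} (hg : Set.InjOn g (H587.wts 𝒜))
    {a : ℤ} (ha : 0 < a) (hmax : ∀ (x : R →ₐ[ℂ] ℂ) (ν ω : M), ¬ IsVertex 𝒜 x → IsFixed 𝒜 x ν →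
      TangentWeight 𝒜 x ν ω → l ω ≤ a) {q : R →ₐ[ℂ] ℂ} {μ : ℤ}
    (hq : ¬ IsVertex (H587.co 𝒜 l) q) (hq' : IsFixed (H587.co 𝒜 l) q μ) {k : ℤ}
    (hk : TangentWeight (H587.co 𝒜 l) q μ k) : k ≤ a := by
  by_contra hlt
  push Not at hlt
  obtain ⟨v, hv, hvw, hc⟩ := hk
  have hv0 : v ≠ 0 := by
    rintro rfl
    obtain ⟨d, m, h, -, h1⟩ := hc 0
    simp at h1
  obtain ⟨y, ν, χ, v', hy0, hy, -, hv', hvw', hlχ, h, hh, hne⟩ :=
    exists_fixed_limit hX hg (fun h => hq (H587.isVertex_co.2 h)) hq' hv hvw hv0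
  have hχ : χ ≠ 0 := by
    rintro rfl
    rw [map_zero] at hlχ
    omega
  have h1 := hmax y ν χ hy0 hy (H587.tangentWeight_of_ne hy hχ hv' hvw' 1 (ν + χ) hh hne)
  omega

/-- Tangent vectors of `l`-weight `a` at the points of the lowest component of `l` are values of
fields. -/
def BaseExt (𝒜 : ℕ × M → Submodule ℂ R) (l : M →+ ℤ) (a : ℤ) : Prop :=
  ∀ μ : ℤ, (∀ (d : ℕ) (m : ℤ), ∀ h ∈ H587.co 𝒜 l (d, m), h ≠ 0 → d • μ ≤ m) →
    (∃ f ∈ H587.co 𝒜 l (1, μ), f ≠ 0) →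
    ∀ q : R →ₐ[ℂ] ℂ, ¬ IsVertex 𝒜 q → IsFixed (H587.co 𝒜 l) q μ → ∀ v : R →ₗ[ℂ] ℂ,
      IsTangent q v → HasWeight (H587.co 𝒜 l) μ a v → ∃ D : Derivation ℂ R R,
        (∀ (d : ℕ) (m : ℤ), ∀ h ∈ H587.co 𝒜 l (d, m), D h ∈ H587.co 𝒜 l (d, m - a)) ∧
          ∀ h, q (D h) = v h

/-- The tangent vectors of weight `χ` at the fixed points of the torus are values of fields. -/
def Liftable (𝒜 : ℕ × M → Submodule ℂ R) (χ : M) : Prop :=
  ∀ (x : R →ₐ[ℂ] ℂ) (ν : M), ¬ IsVertex 𝒜 x → IsFixed 𝒜 x ν → TangentWeight 𝒜 x ν χ →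
    ∀ v : R →ₗ[ℂ] ℂ, IsTangent x v → HasWeight 𝒜 ν χ v →
      ∃ D : Derivation ℂ R R, (∀ (d : ℕ) (m : M), ∀ h ∈ 𝒜 (d, m), D h ∈ 𝒜 (d, m - χ)) ∧
        ∀ h, x (D h) = v h

/-- Components of fields. -/
theorem exists_component_field {l : M →+ ℤ} {x : R →ₐ[ℂ] ℂ} {ν χ : M} (hx : IsFixed 𝒜 x ν)
    {v : R →ₗ[ℂ] ℂ} (hw : HasWeight 𝒜 ν χ v) {D₀ : Derivation ℂ R R} {a : ℤ}
    (h1 : ∀ (d : ℕ) (m : ℤ), ∀ h ∈ H587.co 𝒜 l (d, m), D₀ h ∈ H587.co 𝒜 l (d, m - a))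
    (h2 : ∀ h, x (D₀ h) = v h) : ∃ D : Derivation ℂ R R,
      (∀ (d : ℕ) (m : M), ∀ h ∈ 𝒜 (d, m), D h ∈ 𝒜 (d, m - χ)) ∧ ∀ h, x (D h) = v h := by
  obtain ⟨D, h3, h4⟩ := H587.exists_field_component (𝒜 := 𝒜) D₀ χ
  refine ⟨D, h3, ?_⟩
  have key : x.toLinearMap.comp D.toLinearMap = v := by
    apply linearMap_ext_graded 𝒜
    rintro ⟨d, m⟩ h hh
    change x (D h) = v h
    by_cases hm : m = d • ν + χ
    · rw [h4 d m h hh, ← h2 h, H587.fixed_eq_component hx (h1 d (l m) h (H587.mem_co hh))]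
      have : m - χ = d • ν := by rw [hm]; abel
      rw [this]
    · have e1 : x (D h) = 0 := by
        by_contra hne
        apply hm
        have := hx d (m - χ) (D h) (h3 d m h hh) hne
        rw [← this]
        abel
      have e2 : v h = 0 := by
        by_contra hne
        exact hm (hw d m h hh hne)
      rw [e1, e2]
  intro h
  exact LinearMap.congr_fun key h

/-- **Theorem I for a source which is not isolated** : weights `χ` where `l` attains its maximum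
over all weights are liftable, if this is the case at the lowest component of `l`. -/
theorem liftable_of_base (hX : IsTorusManifold 𝒜) (hN : NefOnRationalCurves 𝒜) {l g : M →+ ℤ}
    (hg : Set.InjOn g (H587.wts 𝒜)) {χ : M} (ha : 0 < l χ)
    (hmax : ∀ (x : R →ₐ[ℂ] ℂ) (ν ω : M), ¬ IsVertex 𝒜 x → IsFixed 𝒜 x ν →
      TangentWeight 𝒜 x ν ω → l ω ≤ l χ) (hb : BaseExt 𝒜 l (l χ)) : Liftable 𝒜 χ := by
  intro x ν hx0 hx _ v hv hvw
  have hdom := hX.domain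
  have hX' : IsTorusManifold (H587.co 𝒜 l) := H587.isTorusManifold_co hX
  -- the lowest slope
  obtain ⟨b, hb'⟩ := (finite_weights hX').bddBelow
  obtain ⟨m0, f0, hf0, hxf0⟩ := (not_isVertex_iff hX'.gen x).1 fun h =>
    hx0 (H587.isVertex_co.1 h)
  obtain ⟨μ, ⟨f, hf, hfne⟩, hmin⟩ := Int.exists_least_of_bdd
    (P := fun m => ∃ h ∈ H587.co 𝒜 l (1, m), h ≠ 0) ⟨b, fun m h => hb' h⟩
    ⟨m0, f0, hf0, fun h0 => hxf0 (by rw [h0, map_zero])⟩
  have hlow : ∀ (d : ℕ) (m : ℤ), ∀ h ∈ H587.co 𝒜 l (d, m), h ≠ 0 → d • μ ≤ m :=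
    slope_le_of_ne hX' fun m h hh hne => hmin m ⟨h, hh, hne⟩
  obtain ⟨D, h1, h2⟩ := ext_of_low hX' (H587.nef_co hN) ha hf hfne hlow
    (fun q hq hq' k hk => weight_le_co hX hg ha hmax hq hq' hk)
    (fun q hq hq' v hv hvw => hb μ hlow ⟨f, hf, hfne⟩ q (fun h => hq (H587.isVertex_co.2 h)) hq' v
      hv hvw) (fun h => hx0 (H587.isVertex_co.1 h)) (H587.isFixed_co hx) hv
    (H587.hasWeight_co hvw)
  exact exists_component_field hx hvw h1 h2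

end Vale.Agent.P280.H127
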