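import Vale.Agent.P280.H127.Source
import Vale.Agent.P280.H939.Trans
import Vale.Agent.P280.H939.Fin
import Vale.Agent.P280.H587.CorB

/-!
P280: Theorem II and its corollaries with the transitivity, without hypotheses on Theorem I.
-/

open DirectSum Vale.Agent.P280.T

namespace Vale.Agent.P280.H127

/-- The graded automorphisms of `R` act transitively on the cone minus its vertex (so the
automorphisms of `X` act transitively on `X`). -/
def IsTransitive {M : Type} {R : Type} [CommRing R] [Algebra ℂ R]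
    (𝒜 : ℕ × M → Submodule ℂ R) : Prop :=
  ∀ z z' : R →ₐ[ℂ] ℂ, ¬ IsVertex 𝒜 z → ¬ IsVertex 𝒜 z' → ∃ F : R ≃ₐ[ℂ] R,
    (∀ (d : ℕ) (m : M), ∀ h ∈ 𝒜 (d, m), F h ∈ ⨆ m' : M, 𝒜 (d, m')) ∧ ∀ h, z' h = z (F h)

theorem lowerBound : H587.LowerBound := by
  intro R _ _ 𝒜 _ hX hN p μ a ha hs x ν hx hx' χ hχ
  exact (weight_bounds H939.theoremI_all hX hN hs ha hx hx' hχ).1

theorem isTransitive_of_source {M : Type} [AddCommGroup M] [DecidableEq M] {R : Type}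
    [CommRing R] [Algebra ℂ R] {𝒜 : ℕ × M → Submodule ℂ R} [GradedAlgebra 𝒜]
    (hX : IsTorusManifold 𝒜) {l : M →+ ℤ} {p : R →ₐ[ℂ] ℂ} {μ : M} {a : ℤ}
    (hs : IsSource 𝒜 l p μ a) (hH : IsHomogeneousManifold 𝒜) : IsTransitive 𝒜 :=
  fun _ _ hz hz' => H939.transitive' hX hs hH hz hz'

section
variable {r : ℕ} {R : Type} [CommRing R] [Algebra ℂ R] {𝒜 : ℕ × (Fin r → ℤ) → Submodule ℂ R}
  [GradedAlgebra 𝒜]

/-- **Theorem II.** -/
theorem theoremII_full (hX : IsTorusManifold 𝒜) (hN : NefOnRationalCurves 𝒜)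
    {p : R →ₐ[ℂ] ℂ} {μ : Fin r → ℤ} (hp0 : ¬ IsVertex 𝒜 p) (hp : IsFixed 𝒜 p μ)
    (h1 : ∀ χ, TangentWeight 𝒜 p μ χ → IsExtremal 𝒜 χ) (l : (Fin r → ℤ) →+ ℤ)
    (h2 : ∀ x ν, ¬ IsVertex 𝒜 x → IsFixed 𝒜 x ν → ¬ SamePoint 𝒜 p x →
      ∃ χ, TangentWeight 𝒜 x ν χ ∧ IsExtremal 𝒜 χ ∧ l χ < 0) :
    IsHomogeneousManifold 𝒜 ∧ IsTransitive 𝒜 := by
  have hH := H587.theoremII H939.theoremI_all hX hN hp0 hp h1 l h2
  obtain ⟨l', a, -, hs⟩ := exists_isSource_II hX hp0 hp h1 l h2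
  exact ⟨hH, isTransitive_of_source hX hs hH⟩

/-- **Corollary A.** The fixed points of the torus are isolated, and each tangent weight is a
vertex of the convex hull of all the tangent weights. -/
theorem corollaryA_full (hX : IsTorusManifold 𝒜) (hN : NefOnRationalCurves 𝒜)
    (hiso : ∀ x ν, ¬ IsVertex 𝒜 x → IsFixed 𝒜 x ν → ¬ TangentWeight 𝒜 x ν 0)
    (hext : ∀ x ν χ, ¬ IsVertex 𝒜 x → IsFixed 𝒜 x ν → TangentWeight 𝒜 x ν χ →
      ∃ l : (Fin r → ℤ) →+ ℤ, ∀ y ξ ω, ¬ IsVertex 𝒜 y → IsFixed 𝒜 y ξ →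
        TangentWeight 𝒜 y ξ ω → ω ≠ χ → l ω < l χ) :
    IsHomogeneousManifold 𝒜 ∧ IsTransitive 𝒜 := by
  have hH := H587.corollaryA H939.theoremI_all hX hN hiso hext
  obtain ⟨g, hg⟩ := H587.exists_generic (finite_weights hX)
  obtain ⟨p, μ, hp0, hp, -, hlow⟩ := H587.exists_source hX hiso g hg
  obtain ⟨l', a, -, hs⟩ := exists_isSource hX hp0 hp (hiso p μ hp0 hp) g
    (fun x ν hx0 hx hs => H587.exists_neg hX hiso g hg hp0 hp hlow hx0 hx hs)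
  exact ⟨hH, isTransitive_of_source hX hs hH⟩

/-- **Corollary C.** At each fixed point of the torus some one-parameter group acts on the tangent
space by homotheties. -/
theorem corollaryC_full (hX : IsTorusManifold 𝒜) (hN : NefOnRationalCurves 𝒜)
    (hC : ∀ x ν, ¬ IsVertex 𝒜 x → IsFixed 𝒜 x ν → ∃ (l : (Fin r → ℤ) →+ ℤ) (a : ℤ), 0 < a ∧
      ∀ χ, TangentWeight 𝒜 x ν χ → l χ = a) :
    IsHomogeneousManifold 𝒜 ∧ IsTransitive 𝒜 := by
  have hH := H587.corollaryC H939.theoremI_all hX hN hC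
  obtain ⟨p, μ, hp0, hp⟩ := H587.exists_fixed hX
  obtain ⟨l, a, ha, hl⟩ := hC p μ hp0 hp
  have hsrc : IsSource 𝒜 l p μ a := ⟨hp0, hp, fun ω hω => by
    rw [hl ω hω]
    exact ⟨ha, le_rfl⟩⟩
  exact ⟨hH, isTransitive_of_source hX hsrc hH⟩

end

/-- **Corollary B.** A one-parameter group with an isolated source, on whose tangent space it acts
by homotheties, and an isolated sink. -/
theorem corollaryB_full {R : Type} [CommRing R] [Algebra ℂ R] {𝒜 : ℕ × ℤ → Submodule ℂ R}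
    [GradedAlgebra 𝒜] (hX : IsTorusManifold 𝒜)
    (hN : NefOnRationalCurves 𝒜) {p : R →ₐ[ℂ] ℂ} {μ a : ℤ}
    (hp : IsSource 𝒜 (AddMonoidHom.id ℤ) p μ a) (h1 : ∀ χ, TangentWeight 𝒜 p μ χ → χ = a)
    {q : R →ₐ[ℂ] ℂ} {ξ a' : ℤ} (hq : IsSource 𝒜 (-AddMonoidHom.id ℤ) q ξ a') :
    IsHomogeneousManifold 𝒜 ∧ IsTransitive 𝒜 := by
  have hH := H587.corollaryB H939.theoremI_all lowerBound hX hN hp h1 hq
  exact ⟨hH, isTransitive_of_source hX hp hH⟩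

end Vale.Agent.P280.H127
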