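import Vale.Agent.P280.H127.EdgeA
import Vale.Agent.P280.H127.Full

/-!
P280 (S8): Theorem II for liftable weights.
-/

open DirectSum Vale.Agent.P280.T Vale.Agent.P280.H93

namespace Vale.Agent.P280.H127

section
variable {M : Type} [AddCommGroup M] [DecidableEq M] {R : Type} [CommRing R] [Algebra ℂ R]
variable {𝒜 : ℕ × M → Submodule ℂ R} [GradedAlgebra 𝒜]

theorem liftable_of_isExtremal (hX : IsTorusManifold 𝒜) (hN : NefOnRationalCurves 𝒜) {χ : M}
    (h : IsExtremal 𝒜 χ) : Liftable 𝒜 χ := by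
  obtain ⟨l, q, ξ, hs⟩ := h
  intro x ν hx0 hx hχ v hv hvw
  exact H587.field_of_extremal H939.theoremI_all hX hN hs (H587.pos_of_isSource hX hs hx0 hχ) hx0
    hx hv hvw

/-- **Theorem II**, for liftable weights and with an ordering of the characters. -/
theorem homogeneous_of_liftable (hX : IsTorusManifold 𝒜) {Γ : Type} [AddCommGroup Γ]
    [LinearOrder Γ] [IsOrderedAddMonoid Γ] (w : M →+ Γ) (hw : Set.InjOn w (H587.wts 𝒜))
    {p : R →ₐ[ℂ] ℂ} {μ : M} (hp0 : ¬ IsVertex 𝒜 p) (hp : IsFixed 𝒜 p μ)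
    (h1 : ∀ χ, TangentWeight 𝒜 p μ χ → Liftable 𝒜 χ)
    (h2 : ∀ x ν, ¬ IsVertex 𝒜 x → IsFixed 𝒜 x ν → ¬ SamePoint 𝒜 p x →
      ∃ χ, TangentWeight 𝒜 x ν χ ∧ Liftable 𝒜 χ ∧ w χ < 0) : IsHomogeneousManifold 𝒜 := by
  obtain ⟨E, hE⟩ := H587.exists_euler 𝒜
  obtain ⟨N, hdim⟩ := exists_dim hX
  -- the point `p`
  obtain ⟨hfinp, hNp⟩ := hdim p hp0
  obtain ⟨r, hr, hpr⟩ := exists_minor (𝒜 := 𝒜) hfinp hNp (by
    intro v hv
    have h3 := H127.mem_span_weight hX hp0 hp hv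
    refine (Submodule.span_le.2 ?_) h3
    rintro u ⟨hu1, χ, hu2⟩
    apply Submodule.subset_span
    by_cases hχ : TangentWeight 𝒜 p μ χ
    · obtain ⟨D, hD1, hD2⟩ := h1 χ hχ p μ hp0 hp hχ u hu1 hu2
      exact ⟨χ, D, hD1, hD2⟩
    · obtain ⟨c, hc⟩ := H587.euler_of_not hu1 hu2 hχ hE
      refine ⟨0, c • E, H587.isHField_euler hE c, fun h => ?_⟩
      rw [hc h, Derivation.smul_apply, map_smul, smul_eq_mul])
  -- no other zero of the minors
  have hJ : ∀ z : R →ₐ[ℂ] ℂ, ¬ IsVertex 𝒜 z → ∃ r ∈ minorIdeal 𝒜 N, z r ≠ 0 := by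
    intro z hz
    by_contra hcon
    push Not at hcon
    have hhom : ∀ x ∈ minorIdeal 𝒜 N, ∀ i, ((decompose 𝒜 x) i : R) ∈ minorIdeal 𝒜 N :=
      fun x hx i => minorIdeal_isHomogeneous N i hx
    obtain ⟨γ, x, hx0, hxJ, hx1, hx2, ν, hν, f, hf, hxf⟩ :=
      exists_lowest hX w hhom ⟨z, hcon, hz⟩
    have hx : IsFixed 𝒜 x ν := by
      refine H587.isFixed_of_one hX fun m h hh hne => ?_
      apply hw ⟨h, hh, fun h0 => hne (by rw [h0, map_zero])⟩
        ⟨f, hf, fun h0 => hxf (by rw [h0, map_zero])⟩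
      have h3 := hx1 1 m h hh hne
      rw [one_smul] at h3
      rw [h3, hν]
    have hsame : ¬ SamePoint 𝒜 p x := by
      rintro ⟨c, hc, hcx⟩
      have h3 : p r = 0 := by
        classical
        rw [← sum_support_decompose 𝒜 r, map_sum]
        apply Finset.sum_eq_zero
        rintro ⟨d, m⟩ _
        have h4 := hcx d m _ (decompose 𝒜 r (d, m)).2
        rw [hxJ _ (hhom r hr (d, m))] at h4
        exact (mul_eq_zero.1 h4.symm).resolve_left (pow_ne_zero d hc)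
      exact hpr h3
    obtain ⟨χ, hχ, hext, hneg⟩ := h2 x ν hx0 hx hsame
    obtain ⟨v, hv, hvw, hc⟩ := id hχ
    obtain ⟨D, hD1, hD2⟩ := hext x ν hx0 hx hχ v hv hvw
    obtain ⟨d, m, h, hh, hne⟩ := hc 0
    rw [zero_mul, zero_mul] at hne
    have hm := hvw d m h hh hne
    have hrad : h ∈ (minorIdeal 𝒜 N).radical := by
      by_contra hnr
      have h3 := hx2 d m h hh hnr
      rw [hm, map_add, map_nsmul, hν] at h3
      have h4 : 0 ≤ w χ := by
        by_contra h5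
        have h6 : d • γ + w χ < d • γ := by
          have := add_lt_add_right hneg (d • γ)
          simpa using this
        exact absurd h3 (not_le.2 h6)
      exact absurd hneg (not_lt.2 h4)
    have h3 := eq_zero_of_radical (minorIdeal 𝒜 N) D (fun r hr => minorIdeal_stable hD1 hr) x hxJ
      hrad
    rw [hD2 h] at h3
    exact hne h3
  intro q hq
  obtain ⟨r, hr, hqr⟩ := hJ q hq
  obtain ⟨hfinq, hNq⟩ := hdim q hq
  exact fun v hv => fields_of_minor hfinq hNq.le hr hqr hv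

end

section
variable {r : ℕ} {R : Type} [CommRing R] [Algebra ℂ R] {𝒜 : ℕ × (Fin r → ℤ) → Submodule ℂ R}
  [GradedAlgebra 𝒜]

/-- **Theorem II with liftable weights, isolated fixed points** : if the fixed points of the torus
are isolated and all the tangent weights are liftable then `X` is homogeneous. -/
theorem full_of_liftable (hX : IsTorusManifold 𝒜)
    (hiso : ∀ x ν, ¬ IsVertex 𝒜 x → IsFixed 𝒜 x ν → ¬ TangentWeight 𝒜 x ν 0)
    (hlift : ∀ x ν χ, ¬ IsVertex 𝒜 x → IsFixed 𝒜 x ν → TangentWeight 𝒜 x ν χ → Liftable 𝒜 χ) :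
    IsHomogeneousManifold 𝒜 ∧ IsTransitive 𝒜 := by
  obtain ⟨g, hg⟩ := H587.exists_generic (finite_weights hX)
  obtain ⟨p, μ, hp0, hp, -, hlow⟩ := H587.exists_source hX hiso g hg
  have hneg : ∀ (x : R →ₐ[ℂ] ℂ) (ν : Fin r → ℤ), ¬ IsVertex 𝒜 x → IsFixed 𝒜 x ν →
      ¬ SamePoint 𝒜 p x → ∃ χ, TangentWeight 𝒜 x ν χ ∧ g χ < 0 :=
    fun x ν hx0 hx hs => H587.exists_neg hX hiso g hg hp0 hp hlow hx0 hx hs
  have hH : IsHomogeneousManifold 𝒜 := by
    refine homogeneous_of_liftable hX g hg hp0 hp (fun χ hχ => hlift p μ χ hp0 hp hχ) ?_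
    intro x ν hx0 hx hs
    obtain ⟨χ, hχ, hχ0⟩ := hneg x ν hx0 hx hs
    exact ⟨χ, hχ, hlift x ν χ hx0 hx hχ, hχ0⟩
  obtain ⟨l', a, -, hs⟩ := exists_isSource hX hp0 hp (hiso p μ hp0 hp) g hneg
  exact ⟨hH, isTransitive_of_source hX hs hH⟩

end

end Vale.Agent.P280.H127
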