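import Vale.Agent.P280.H127.EdgeB
import Vale.Agent.P280.H939.EBase

/-!
P280 (S8): weights on the edges of the convex hull.
-/

open DirectSum Vale.Agent.P280.T

namespace Vale.Agent.P280.H127

section
variable {M : Type} [AddCommGroup M] [DecidableEq M] {R : Type} [CommRing R] [Algebra ℂ R]

/-- The weights of `l` are at most `a`, and at each fixed point of the torus at most one weight, of
multiplicity one, is killed by `l`. -/
structure IsEdge (𝒜 : ℕ × M → Submodule ℂ R) (l : M →+ ℤ) (a : ℤ) : Prop where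
  le : ∀ (x : R →ₐ[ℂ] ℂ) (ν ω : M), ¬ IsVertex 𝒜 x → IsFixed 𝒜 x ν → TangentWeight 𝒜 x ν ω →
    l ω ≤ a
  iso : ∀ (x : R →ₐ[ℂ] ℂ) (ν : M), ¬ IsVertex 𝒜 x → IsFixed 𝒜 x ν → ¬ TangentWeight 𝒜 x ν 0
  one : ∀ (x : R →ₐ[ℂ] ℂ) (ν ω ω' : M), ¬ IsVertex 𝒜 x → IsFixed 𝒜 x ν →
    TangentWeight 𝒜 x ν ω → TangentWeight 𝒜 x ν ω' → l ω = 0 → l ω' = 0 → ω = ω'
  mult : ∀ (x : R →ₐ[ℂ] ℂ) (ν ω : M), ¬ IsVertex 𝒜 x → IsFixed 𝒜 x ν → TangentWeight 𝒜 x ν ω →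
    l ω = 0 → ∀ v v' : R →ₗ[ℂ] ℂ, IsTangent x v → HasWeight 𝒜 ν ω v → IsTangent x v' →
      HasWeight 𝒜 ν ω v' → ∃ c c' : ℂ, (c ≠ 0 ∨ c' ≠ 0) ∧ ∀ h, c * v h + c' * v' h = 0

/-- A point fixed by the torus which is the source for `l` first and then `g`. -/
theorem exists_lex_source {𝒜 : ℕ × M → Submodule ℂ R} [GradedAlgebra 𝒜]
    (hX : IsTorusManifold 𝒜)
    (hiso : ∀ (x : R →ₐ[ℂ] ℂ) (ν : M), ¬ IsVertex 𝒜 x → IsFixed 𝒜 x ν → ¬ TangentWeight 𝒜 x ν 0)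
    {g : M →+ ℤ} (hg : Set.InjOn g (H587.wts 𝒜)) (l : M →+ ℤ) :
    ∃ (p : R →ₐ[ℂ] ℂ) (μ : M), ¬ IsVertex 𝒜 p ∧ IsFixed 𝒜 p μ ∧
      (∀ χ, TangentWeight 𝒜 p μ χ → 0 < l χ ∨ (l χ = 0 ∧ 0 < g χ)) ∧
      ∀ m ∈ H587.wts 𝒜, l μ ≤ l m := by
  obtain ⟨K, hK0, hK⟩ := H587.exists_bound (S := H587.wts 𝒜) (finite_weights hX) g
  let l' : M →+ ℤ := (2 * K + 1) • l + g
  have hl' : ∀ m, l' m = (2 * K + 1) * l m + g m := fun m => by
    change (2 * K + 1) • l m + g m = _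
    rw [smul_eq_mul]
  have hinj : Set.InjOn l' (H587.wts 𝒜) := by
    intro a ha b hb hab
    apply hg ha hb
    have h1 : (2 * K + 1) * l (a - b) + g (a - b) = 0 := by
      have : l' (a - b) = 0 := by rw [map_sub, hab, sub_self]
      rwa [hl'] at this
    have h2 := abs_le.1 (hK a ha b hb)
    have h3 : l (a - b) = 0 := by
      by_contra hne
      rcases lt_or_gt_of_ne hne with hlt | hgt
      · nlinarith
      · nlinarith
    rw [h3, mul_zero, zero_add, map_sub] at h1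
    exact sub_eq_zero.1 h1
  obtain ⟨p, μ, hp0, hp, hpos, hlow⟩ := H587.exists_source hX hiso l' hinj
  obtain ⟨f, hf, hpf⟩ := exists_deg_one_ne hX.gen hp0 hp
  have hμ : μ ∈ H587.wts 𝒜 := ⟨f, hf, fun h0 => hpf (by rw [h0, map_zero])⟩
  refine ⟨p, μ, hp0, hp, fun χ hχ => ?_, fun m hm => ?_⟩
  · have h1 := hpos χ hχ
    rw [hl'] at h1
    obtain ⟨h2, h3⟩ := H587.tangentWeight_mem hX hp0 hp hχ
    have h4 := hK _ h3 _ h2
    rw [add_sub_cancel_left] at h4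
    have h5 := abs_le.1 h4
    by_cases h6 : 0 < l χ
    · exact Or.inl h6
    · have h7 : l χ = 0 := by
        by_contra hne
        have h8 : l χ < 0 := by omega
        nlinarith
      rw [h7, mul_zero, zero_add] at h1
      exact Or.inr ⟨h7, h1⟩
  · obtain ⟨h, hh, hne⟩ := id hm
    have h1 := hlow 1 m h hh hne
    rw [one_smul, hl', hl'] at h1
    have h2 := hK m hm μ hμ
    rw [map_sub] at h2
    have h3 := abs_le.1 h2
    by_contra hlt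
    push Not at hlt
    nlinarith

/-- The lowest slope is unique. -/
theorem slope_unique {𝒜 : ℕ × M → Submodule ℂ R} [GradedAlgebra 𝒜]
    {l : M →+ ℤ} {μ : M} (hμ : μ ∈ H587.wts 𝒜) (hlow : ∀ m ∈ H587.wts 𝒜, l μ ≤ l m) {k : ℤ}
    (hk : ∀ (d : ℕ) (m : ℤ), ∀ h ∈ H587.co 𝒜 l (d, m), h ≠ 0 → d • k ≤ m)
    (hex : ∃ f ∈ H587.co 𝒜 l (1, k), f ≠ 0) : k = l μ := by
  apply le_antisymm
  · obtain ⟨h, hh, hne⟩ := hμ
    have h1 := hk 1 (l μ) h (H587.mem_co hh) hne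
    rwa [one_smul] at h1
  · obtain ⟨f, hf, hne⟩ := hex
    obtain ⟨m, hm, h, hh, hne'⟩ := H587.exists_ne_of_co (LinearMap.id : R →ₗ[ℂ] R) hf hne
    rw [← hm]
    exact hlow m ⟨h, hh, hne'⟩

/-- The base of the transport, when the lowest component of `l` is a point or a projective
line. -/
theorem baseExt_of_edge (hB : H939.EdgeBase) {𝒜 : ℕ × M → Submodule ℂ R} [GradedAlgebra 𝒜]
    (hX : IsTorusManifold 𝒜) (hN : NefOnRationalCurves 𝒜) {g : M →+ ℤ}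
    (hg : Set.InjOn g (H587.wts 𝒜)) {l : M →+ ℤ} {a : ℤ} (ha : 0 < a) (hE : IsEdge 𝒜 l a) :
    BaseExt 𝒜 l a := by
  obtain ⟨p, μ, hp0, hp, hpw, hlow⟩ := exists_lex_source hX hE.iso hg l
  obtain ⟨f, hf, hpf⟩ := exists_deg_one_ne hX.gen hp0 hp
  have hμ : μ ∈ H587.wts 𝒜 := ⟨f, hf, fun h0 => hpf (by rw [h0, map_zero])⟩
  intro k hk hex q hq hq' v hv hvw
  have hkμ : k = l μ := slope_unique hμ hlow hk hex
  subst hkμ
  by_cases hcase : ∃ χ, TangentWeight 𝒜 p μ χ ∧ l χ = 0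
  · refine (hB M R 𝒜 hX hN l g p μ a ha hp0 hp hpw hcase ?_ ?_ ?_).2.2 q v hq hq' hv hvw
    · intro x ν χ hx0 hx _ hχ
      exact hE.le x ν χ hx0 hx hχ
    · intro x ν χ χ' hx0 hx _ hχ hχ' h0 h0'
      exact hE.one x ν χ χ' hx0 hx hχ hχ' h0 h0'
    · intro x ν χ v v' hx0 hx _ h0 hχ0 hv hvw hv' hvw'
      by_cases hv0 : ∃ d m, ∃ h ∈ 𝒜 (d, m), v h ≠ 0
      · obtain ⟨d, m, h, hh, hne⟩ := hv0
        exact hE.mult x ν χ hx0 hx (H587.tangentWeight_of_ne hx hχ0 hv hvw d m hh hne) h0 v v' hv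
          hvw hv' hvw'
      · push Not at hv0
        have h1 : v = 0 := H644.ext_hom (𝒜 := 𝒜) fun i h hh => hv0 i.1 i.2 h hh
        exact ⟨1, 0, Or.inl one_ne_zero, fun h => by rw [h1]; simp⟩
  · have hs : IsSource 𝒜 l p μ a := by
      refine ⟨hp0, hp, fun χ hχ => ⟨?_, hE.le p μ χ hp0 hp hχ⟩⟩
      rcases hpw χ hχ with h | ⟨h, -⟩
      · exact h
      · exact absurd ⟨χ, hχ, h⟩ hcase
    exact (H939.theoremI_all R (H587.co 𝒜 l) (H587.isTorusManifold_co hX) (H587.nef_co hN) p (l μ)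
      a ha (H587.isSource_co hs) q (l μ) (fun h => hq (H587.isVertex_co.1 h)) hq').2 v hv hvw

end

variable {r : ℕ}

/-- A homomorphism which vanishes on `δ` and which is generic otherwise. -/
theorem exists_generic_mod {S : Set (Fin r → ℤ)} (hS : S.Finite) {δ : Fin r → ℤ} (hδ : δ ≠ 0) :
    ∃ g : (Fin r → ℤ) →+ ℤ, g δ = 0 ∧
      ∀ m ∈ S, g m = 0 → ∃ a b : ℤ, b ≠ 0 ∧ b • m = a • δ := by
  obtain ⟨j, hj⟩ := Function.ne_iff.1 hδ
  let φ : (Fin r → ℤ) →+ (Fin r → ℤ) :=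
    { toFun := fun m => δ j • m - m j • δ
      map_zero' := by simp
      map_add' := fun a b => by
        rw [Pi.add_apply, smul_add, add_smul]
        abel }
  have hφ : ∀ m, φ m = δ j • m - m j • δ := fun _ => rfl
  obtain ⟨g, hg⟩ := H587.exists_generic (S := φ '' S ∪ {0}) ((hS.image φ).union
    (Set.finite_singleton 0))
  refine ⟨g.comp φ, ?_, fun m hm h0 => ⟨m j, δ j, hj, ?_⟩⟩
  · rw [AddMonoidHom.comp_apply, hφ, sub_self, map_zero]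
  · have h1 : φ m = 0 := hg (Or.inl ⟨m, hm, rfl⟩) (Or.inr rfl) (by
      rw [AddMonoidHom.comp_apply] at h0
      rw [h0, map_zero])
    rw [hφ] at h1
    exact sub_eq_zero.1 h1

variable {R : Type} [CommRing R] [Algebra ℂ R] {𝒜 : ℕ × (Fin r → ℤ) → Submodule ℂ R}
  [GradedAlgebra 𝒜]

/-- A weight in the interior of an edge of the convex hull, if the weights at each fixed point are
pairwise independent. -/
theorem exists_isEdge (hX : IsTorusManifold 𝒜)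
    (hiso : ∀ x ν, ¬ IsVertex 𝒜 x → IsFixed 𝒜 x ν → ¬ TangentWeight 𝒜 x ν 0)
    (hind : ∀ x ν ω ω', ¬ IsVertex 𝒜 x → IsFixed 𝒜 x ν → TangentWeight 𝒜 x ν ω →
      TangentWeight 𝒜 x ν ω' → (∃ a b : ℤ, a ≠ 0 ∧ b ≠ 0 ∧ a • ω = b • ω') → ω = ω')
    (hmult : ∀ x ν ω, ¬ IsVertex 𝒜 x → IsFixed 𝒜 x ν → TangentWeight 𝒜 x ν ω →
      ∀ v v' : R →ₗ[ℂ] ℂ, IsTangent x v → HasWeight 𝒜 ν ω v → IsTangent x v' →
        HasWeight 𝒜 ν ω v' → ∃ c c' : ℂ, (c ≠ 0 ∨ c' ≠ 0) ∧ ∀ h, c * v h + c' * v' h = 0)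
    {x0 : R →ₐ[ℂ] ℂ} {ν0 χ δ : Fin r → ℤ} (hx0 : ¬ IsVertex 𝒜 x0) (hx : IsFixed 𝒜 x0 ν0)
    (hχ : TangentWeight 𝒜 x0 ν0 χ) (hδ : δ ≠ 0) (l : (Fin r → ℤ) →+ ℤ) (hl : 0 < l χ)
    (hmax : ∀ y ξ ω, ¬ IsVertex 𝒜 y → IsFixed 𝒜 y ξ → TangentWeight 𝒜 y ξ ω →
      l ω ≤ l χ ∧ (l ω = l χ → ∃ a b : ℤ, b ≠ 0 ∧ b • (ω - χ) = a • δ)) :
    ∃ l' : (Fin r → ℤ) →+ ℤ, 0 < l' χ ∧ IsEdge 𝒜 l' (l' χ) := by
  have hfin : (H587.wts 𝒜).Finite := finite_weights hX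
  obtain ⟨g, hgδ, hg⟩ := exists_generic_mod (S := Set.image2 (fun a b => a - b) (H587.wts 𝒜)
    (H587.wts 𝒜)) (hfin.image2 _ hfin) hδ
  obtain ⟨K, hK0, hK⟩ := H587.exists_bound hfin g
  have hw : ∀ y ξ ω, ¬ IsVertex 𝒜 y → IsFixed 𝒜 y ξ → TangentWeight 𝒜 y ξ ω →
      |g ω| ≤ K ∧ (g ω = 0 → ∃ a b : ℤ, b ≠ 0 ∧ b • ω = a • δ) := by
    intro y ξ ω hy0 hy hω
    obtain ⟨h1, h2⟩ := H587.tangentWeight_mem hX hy0 hy hω
    refine ⟨?_, fun h0 => hg ω ⟨ξ + ω, h2, ξ, h1, ?_⟩ h0⟩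
    · have h3 := hK _ h2 _ h1
      rwa [add_sub_cancel_left] at h3
    · change ξ + ω - ξ = ω
      rw [add_sub_cancel_left]
  let l' : (Fin r → ℤ) →+ ℤ := (2 * K + 1) • l + g
  have hl' : ∀ m, l' m = (2 * K + 1) * l m + g m := fun m => by
    change (2 * K + 1) • l m + g m = _
    rw [smul_eq_mul]
  have hχK := abs_le.1 (hw x0 ν0 χ hx0 hx hχ).1
  refine ⟨l', ?_, ⟨?_, hiso, ?_, ?_⟩⟩
  · rw [hl']
    nlinarith
  · intro y ξ ω hy0 hy hω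
    obtain ⟨h1, h2⟩ := hmax y ξ ω hy0 hy hω
    have h3 := abs_le.1 (hw y ξ ω hy0 hy hω).1
    rw [hl', hl']
    rcases h1.lt_or_eq with hlt | heq
    · nlinarith
    · obtain ⟨a, b, hb, hab⟩ := h2 heq
      have h4 : b * (g ω - g χ) = 0 := by
        have h5 := congrArg g hab
        rw [map_zsmul, map_zsmul, hgδ, map_sub, smul_zero, smul_eq_mul] at h5
        exact h5
      have h5 := (mul_eq_zero.1 h4).resolve_left hb
      rw [heq]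
      linarith
  · intro y ξ ω ω' hy0 hy hω hω' h0 h0'
    have key : ∀ ω, TangentWeight 𝒜 y ξ ω → l' ω = 0 →
        ∃ a b : ℤ, a ≠ 0 ∧ b ≠ 0 ∧ b • ω = a • δ := by
      intro ω hω h0
      obtain ⟨h1, h2⟩ := hw y ξ ω hy0 hy hω
      have h3 := abs_le.1 h1
      rw [hl'] at h0
      have h4 : l ω = 0 := by
        by_contra hne
        rcases lt_or_gt_of_ne hne with hlt | hgt
        · nlinarith
        · nlinarith
      rw [h4, mul_zero, zero_add] at h0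
      obtain ⟨a, b, hb, hab⟩ := h2 h0
      refine ⟨a, b, ?_, hb, hab⟩
      rintro rfl
      rw [zero_smul] at hab
      have h5 : ω = 0 := (smul_eq_zero.1 hab).resolve_left hb
      rw [h5] at hω
      exact hiso y ξ hy0 hy hω
    obtain ⟨a, b, ha, hb, hab⟩ := key ω hω h0
    obtain ⟨a', b', ha', hb', hab'⟩ := key ω' hω' h0'
    refine hind y ξ ω ω' hy0 hy hω hω' ⟨a' * b, a * b', mul_ne_zero ha' hb, mul_ne_zero ha hb', ?_⟩
    rw [mul_smul, hab, mul_smul, hab', smul_smul, smul_smul, mul_comm]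
  · intro y ξ ω hy0 hy hω _ v v' hv hvw hv' hvw'
    exact hmult y ξ ω hy0 hy hω v v' hv hvw hv' hvw'

/-- **Corollary E.** The fixed points of the torus are isolated, the weights at each of them are
pairwise independent, and each tangent weight lies on an edge of the convex hull of all the tangent
weights or is a vertex of it: then `X` is homogeneous. -/
theorem corollaryE_of (hB : H939.EdgeBase) (hX : IsTorusManifold 𝒜) (hN : NefOnRationalCurves 𝒜)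
    (hiso : ∀ x ν, ¬ IsVertex 𝒜 x → IsFixed 𝒜 x ν → ¬ TangentWeight 𝒜 x ν 0)
    (hind : ∀ x ν ω ω', ¬ IsVertex 𝒜 x → IsFixed 𝒜 x ν → TangentWeight 𝒜 x ν ω →
      TangentWeight 𝒜 x ν ω' → (∃ a b : ℤ, a ≠ 0 ∧ b ≠ 0 ∧ a • ω = b • ω') → ω = ω')
    (hmult : ∀ x ν ω, ¬ IsVertex 𝒜 x → IsFixed 𝒜 x ν → TangentWeight 𝒜 x ν ω →
      ∀ v v' : R →ₗ[ℂ] ℂ, IsTangent x v → HasWeight 𝒜 ν ω v → IsTangent x v' →
        HasWeight 𝒜 ν ω v' → ∃ c c' : ℂ, (c ≠ 0 ∨ c' ≠ 0) ∧ ∀ h, c * v h + c' * v' h = 0)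
    (hedge : ∀ x ν χ, ¬ IsVertex 𝒜 x → IsFixed 𝒜 x ν → TangentWeight 𝒜 x ν χ →
      ∃ (l : (Fin r → ℤ) →+ ℤ) (δ : Fin r → ℤ), 0 < l χ ∧ ∀ y ξ ω, ¬ IsVertex 𝒜 y →
        IsFixed 𝒜 y ξ → TangentWeight 𝒜 y ξ ω →
          l ω ≤ l χ ∧ (l ω = l χ → ∃ a b : ℤ, b ≠ 0 ∧ b • (ω - χ) = a • δ)) :
    IsHomogeneousManifold 𝒜 ∧ IsTransitive 𝒜 := by
  obtain ⟨g, hg⟩ := H587.exists_generic (finite_weights hX)
  refine full_of_liftable hX hiso fun x ν χ hx0 hx hχ => ?_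
  obtain ⟨l, δ, hl, hmax⟩ := hedge x ν χ hx0 hx hχ
  by_cases hδ : δ = 0
  · refine liftable_of_isExtremal hX hN (H587.isExtremal_of_vertex hX hiso g hg hx0 hx hχ l ?_)
    intro y ξ ω hy0 hy hω hne
    obtain ⟨h1, h2⟩ := hmax y ξ ω hy0 hy hω
    refine lt_of_le_of_ne h1 fun heq => hne ?_
    obtain ⟨a, b, hb, hab⟩ := h2 heq
    rw [hδ, smul_zero] at hab
    exact sub_eq_zero.1 ((smul_eq_zero.1 hab).resolve_left hb)
  · obtain ⟨l', hl', hE⟩ := exists_isEdge hX hiso hind hmult hx0 hx hχ hδ l hl hmax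
    exact liftable_of_base hX hN hg hl' hE.le (baseExt_of_edge hB hX hN hg hl' hE)

end Vale.Agent.P280.H127
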