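import Vale.Agent.P280.H127.Setup
import Vale.Agent.P280.H127.Glue
import Vale.Agent.P280.H127.EdgeC
import Vale.Agent.P280.H939.E5b
import Vale.Agent.P280.H644.Div

/-!
P280 (B1), assembly: tangent vectors of maximal weight at a source line are values of fields.
-/

open DirectSum Vale.Agent.P280.T Vale.Agent.P280.H939

namespace Vale.Agent.P280.H127

section
variable {M : Type} [AddCommGroup M] [DecidableEq M] {R : Type} [CommRing R] [Algebra ℂ R]
variable {𝒜 : ℕ × M → Submodule ℂ R} [GradedAlgebra 𝒜]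

/-- The component of weight `a` of a derivation along the line. -/
theorem exists_delta {l : M →+ ℤ} {μ : M} {k : ℕ} {φ : R →ₐ[ℂ] MvPolynomial (Fin 2) ℂ}
    (hzero : ∀ (d : ℕ) (m : M), l (m - d • μ) ≠ 0 → ∀ h ∈ 𝒜 (d, m), φ h = 0)
    {δ : R →ₗ[ℂ] MvPolynomial (Fin 2) ℂ} (hδ : ∀ x y, δ (x * y) = φ x * δ y + φ y * δ x)
    (hδh : ∀ (d : ℕ) (m : M), ∀ h ∈ 𝒜 (d, m), (δ h).IsHomogeneous (d * k)) (a : ℤ) :
    ∃ δ' : R →ₗ[ℂ] MvPolynomial (Fin 2) ℂ, (∀ x y, δ' (x * y) = φ x * δ' y + φ y * δ' x) ∧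
      (∀ (d : ℕ) (m : M), ∀ h ∈ 𝒜 (d, m), (δ' h).IsHomogeneous (d * k)) ∧
      (∀ (d : ℕ) (m : M), l (m - d • μ) ≠ a → ∀ h ∈ 𝒜 (d, m), δ' h = 0) ∧
      ∀ (d : ℕ) (m : M), l (m - d • μ) = a → ∀ h ∈ 𝒜 (d, m), δ' h = δ h := by
  set δ' : R →ₗ[ℂ] MvPolynomial (Fin 2) ℂ :=
    H644.tw 𝒜 fun i => if l (i.2 - i.1 • μ) = a then δ else 0 with hδ'
  have h1 : ∀ (d : ℕ) (m : M), l (m - d • μ) = a → ∀ h ∈ 𝒜 (d, m), δ' h = δ h := by
    intro d m hm h hh
    rw [hδ', H644.tw_mem 𝒜 _ hh, if_pos hm]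
  have h2 : ∀ (d : ℕ) (m : M), l (m - d • μ) ≠ a → ∀ h ∈ 𝒜 (d, m), δ' h = 0 := by
    intro d m hm h hh
    rw [hδ', H644.tw_mem 𝒜 _ hh, if_neg hm]
    rfl
  refine ⟨δ', ?_, ?_, h2, h1⟩
  · refine H644.isDer_of_hom (𝒜 := 𝒜) ?_
    rintro ⟨d, m⟩ ⟨d', m'⟩ x hx y hy
    have hxy : x * y ∈ 𝒜 (d + d', m + m') := SetLike.mul_mem_graded hx hy
    have hsum : l (m + m' - (d + d') • μ) = l (m - d • μ) + l (m' - d' • μ) := by
      rw [← map_add]
      congr 1
      rw [add_smul]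
      abel
    by_cases hx0 : l (m - d • μ) = 0
    · by_cases hy0 : l (m' - d' • μ) = 0
      · by_cases ha : (0 : ℤ) = a
        · rw [h1 _ _ (by rw [hsum, hx0, hy0, add_zero, ha]) _ hxy, h1 _ _ (by rw [hx0, ha]) _ hx,
            h1 _ _ (by rw [hy0, ha]) _ hy]
          exact hδ x y
        · rw [h2 _ _ (by rw [hsum, hx0, hy0, add_zero]; exact ha) _ hxy,
            h2 _ _ (by rw [hx0]; exact ha) _ hx, h2 _ _ (by rw [hy0]; exact ha) _ hy]
          simp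
      · have hφy := hzero _ _ hy0 y hy
        by_cases ha : l (m' - d' • μ) = a
        · rw [h1 _ _ (by rw [hsum, hx0, ha, zero_add]) _ hxy, h1 _ _ ha _ hy, hδ x y, hφy,
            zero_mul, zero_mul]
        · rw [h2 _ _ (by rw [hsum, hx0, zero_add]; exact ha) _ hxy, h2 _ _ ha _ hy, hφy]
          simp
    · have hφx := hzero _ _ hx0 x hx
      by_cases hy0 : l (m' - d' • μ) = 0
      · by_cases ha : l (m - d • μ) = a
        · rw [h1 _ _ (by rw [hsum, hy0, ha, add_zero]) _ hxy, h1 _ _ ha _ hx, hδ x y, hφx,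
            zero_mul, zero_mul]
        · rw [h2 _ _ (by rw [hsum, hy0, add_zero]; exact ha) _ hxy, h2 _ _ ha _ hx, hφx]
          simp
      · have hφy := hzero _ _ hy0 y hy
        rw [hφx, hφy, zero_mul, zero_mul, add_zero]
        by_cases ha : l (m + m' - (d + d') • μ) = a
        · rw [h1 _ _ ha _ hxy, hδ x y, hφx, hφy, zero_mul, zero_mul, add_zero]
        · rw [h2 _ _ ha _ hxy]
  · intro d m h hh
    by_cases hm : l (m - d • μ) = a
    · rw [h1 d m hm h hh]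
      exact hδh d m h hh
    · rw [h2 d m hm h hh]
      exact MvPolynomial.isHomogeneous_zero _ _ _

/-- **(B1)** for a source line. -/
theorem baseExt_of_line (hX : IsTorusManifold 𝒜) (hN : NefOnRationalCurves 𝒜) {g : M →+ ℤ}
    (hg : Set.InjOn g (H587.wts 𝒜)) {l : M →+ ℤ} {a : ℤ} (ha : 0 < a) (hE : IsEdge 𝒜 l a)
    {p : R →ₐ[ℂ] ℂ} {μ : M} (hp0 : ¬ IsVertex 𝒜 p) (hp : IsFixed 𝒜 p μ)
    (hpw : ∀ χ, TangentWeight 𝒜 p μ χ → 0 < l χ ∨ (l χ = 0 ∧ 0 < g χ))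
    (hcase : ∃ χ, TangentWeight 𝒜 p μ χ ∧ l χ = 0) {z : R →ₐ[ℂ] ℂ} (hz : ¬ IsVertex 𝒜 z)
    (hz' : IsFixed (H587.co 𝒜 l) z (l μ)) {v : R →ₗ[ℂ] ℂ} (hv : IsTangent z v)
    (hvw : HasWeight (H587.co 𝒜 l) (l μ) a v) : ∃ D : Derivation ℂ R R,
      (∀ (d : ℕ) (m : ℤ), ∀ h ∈ H587.co 𝒜 l (d, m), D h ∈ H587.co 𝒜 l (d, m - a)) ∧
        ∀ h, z (D h) = v h := by
  have hdom := hX.domain
  obtain ⟨L, n, u, χ, i0, f, f1, k, φ, c0, L', q, n', u', χ', i1, c1, C, hi0, hother, D, hc0, hev,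
    hle, C', hi1, hother', hc1, hev', hle', hq⟩ := exists_setup hX l g p μ a hp0 hp hpw hcase
    (fun x ν χ hx0 hx _ hχ => hE.le x ν χ hx0 hx hχ)
    (fun x ν χ χ' hx0 hx _ hχ hχ' h0 h0' => hE.one x ν χ χ' hx0 hx hχ hχ' h0 h0')
    (fun x ν χ v v' hx0 hx _ h0 hχ0 hv hvw hv' hvw' => by
      by_cases hv0 : ∃ d m, ∃ h ∈ 𝒜 (d, m), v h ≠ 0
      · obtain ⟨d, m, h, hh, hne⟩ := hv0
        exact hE.mult x ν χ hx0 hx (H587.tangentWeight_of_ne hx hχ0 hv hvw d m hh hne) h0 v v' hv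
          hvw hv' hvw'
      · push Not at hv0
        have h1 : v = 0 := H644.ext_hom (𝒜 := 𝒜) fun i h hh => hv0 i.1 i.2 h hh
        exact ⟨1, 0, Or.inl one_ne_zero, fun h => by rw [h1]; simp⟩)
  have hk := D.kpos
  have hX' : IsTorusManifold (H587.co 𝒜 l) := H587.isTorusManifold_co hX
  -- the point on the line
  obtain ⟨-, s0, t0, hst, hzφ⟩ := cover D C.hf hz hz'
  have hpt : (![s0, t0] : Fin 2 → ℂ) ≠ 0 := by
    intro h0
    have e0 := congrFun h0 0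
    have e1 := congrFun h0 1
    rcases hst with h | h
    · exact h e0
    · exact h e1
  have hbp : ∀ b : Fin 2 → ℂ, b ≠ 0 → ¬ IsVertex 𝒜 ((MvPolynomial.aeval b).comp φ) := by
    intro b hb hver
    have e0 : b 0 = 0 := by
      have h1 := hver 1 μ one_pos f C.hf
      change MvPolynomial.aeval b (φ f) = 0 at h1
      rw [D.phif, map_pow, MvPolynomial.aeval_X] at h1
      exact (pow_eq_zero_iff hk.ne').1 h1
    have e1 : b 1 = 0 := by
      have h1 := hver 1 _ one_pos f1 D.f1mem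
      change MvPolynomial.aeval b (φ f1) = 0 at h1
      rw [D.phif1, map_pow, MvPolynomial.aeval_X] at h1
      exact (pow_eq_zero_iff hk.ne').1 h1
    apply hb
    funext i
    fin_cases i
    · exact e0
    · exact e1
  obtain ⟨δ, hδ, hδh, hδv⟩ := hN k φ D.hom hbp ![s0, t0] hpt v (by rw [← hzφ]; exact hv)
  obtain ⟨δa, hδa1, hδa2, hδa3, hδa4⟩ := exists_delta D.zero hδ hδh a
  have hval : ∀ h, MvPolynomial.aeval ![s0, t0] (δa h) = v h := by
    have key : (MvPolynomial.aeval ![s0, t0]).toLinearMap.comp δa = v := by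
      refine linearMap_ext_graded 𝒜 ?_
      rintro ⟨d, m⟩ h hh
      change MvPolynomial.aeval ![s0, t0] (δa h) = v h
      by_cases hm : l (m - d • μ) = a
      · rw [hδa4 d m hm h hh, hδv]
      · rw [hδa3 d m hm h hh, map_zero]
        by_contra hne
        apply hm
        have h1 := hvw d (l m) h (H587.mem_co hh) (Ne.symm hne)
        rw [map_sub, map_nsmul, h1]
        ring
    intro h
    exact LinearMap.congr_fun key h
  -- the two derivations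
  have hlμ' : l (μ + k • χ i0) = l μ := by
    rw [map_add, map_nsmul, hi0, smul_zero, add_zero]
  have hrel : ∀ (d : ℕ) (m : M), l (m - d • (μ + k • χ i0)) = l (m - d • μ) := by
    intro d m
    rw [map_sub, map_sub, map_nsmul, map_nsmul, hlμ']
  obtain ⟨N0, D0, hD0, hD0φ⟩ := C.exists_D1 hX i0 hi0 hother φ D.hom D.zero evs
    (fun P D hP h => evs_inj hP h) (by rw [D.phif, map_pow, evs_zero, one_pow]) hc0 hev ha δa
    hδa1 hδa2 hδa3
  obtain ⟨N1, D1, hD1, hD1φ⟩ := C'.exists_D1 hX i1 hi1 hother' φ D.hom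
    (fun d m hm h hh => D.zero d m (by rwa [hrel] at hm) h hh) evt
    (fun P D hP h => evt_inj hP h) (by rw [D.phif1, map_pow, evt_one, one_pow]) hc1 hev' ha δa
    hδa1 hδa2 (fun d m hm h hh => hδa3 d m (by rwa [hrel] at hm) h hh)
  rw [hlμ'] at hD1
  have hfL : f ∈ H587.co 𝒜 l (1, 1 • l μ) :=
    low_of_mem C.hf (by rw [one_smul, sub_self, map_zero])
  have hf1L : f1 ∈ H587.co 𝒜 l (1, 1 • l μ) :=
    low_of_mem D.f1mem (by rw [one_smul, add_sub_cancel_left, map_nsmul, hi0, smul_zero])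
  have hmul : ∀ (x : R) (_ : x ∈ H587.co 𝒜 l (1, 1 • l μ)) (A B : ℕ) (E : Derivation ℂ R R)
      (_ : ∀ (d : ℕ) (m : ℤ), ∀ h ∈ H587.co 𝒜 l (d, m),
        E h ∈ H587.co 𝒜 l (d + A, m + A • l μ - a)) (d : ℕ) (m : ℤ) (h : R)
      (_ : h ∈ H587.co 𝒜 l (d, m)),
      x ^ B * E h ∈ H587.co 𝒜 l (d + (A + B), m + (A + B) • l μ - a) := by
    intro x hx A B E hE' d m h hh
    have h1 := low_pow hx B
    rw [mul_one] at h1
    have h2 := SetLike.mul_mem_graded h1 (hE' d m h hh)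
    have h3 : ((B, B • l μ) : ℕ × ℤ) + (d + A, m + A • l μ - a) =
        (d + (A + B), m + (A + B) • l μ - a) := by
      rw [Prod.mk_add_mk, add_smul]
      apply Prod.ext
      · change B + (d + A) = d + (A + B)
        ring
      · change B • l μ + (m + A • l μ - a) = m + (A • l μ + B • l μ) - a
        ring
    rwa [h3] at h2
  let E0 : Derivation ℂ R R := f ^ N1 • D0
  let E1 : Derivation ℂ R R := f1 ^ N0 • D1
  have hE0 : ∀ h, E0 h = f ^ N1 * D0 h := fun h => rfl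
  have hE1 : ∀ h, E1 h = f1 ^ N0 * D1 h := fun h => rfl
  have hE0d : ∀ (d : ℕ) (m : ℤ), ∀ h ∈ H587.co 𝒜 l (d, m),
      E0 h ∈ H587.co 𝒜 l (d + (N0 + N1), m + (N0 + N1) • l μ - a) :=
    fun d m h hh => hmul f hfL N0 N1 D0 hD0 d m h hh
  have hE1d : ∀ (d : ℕ) (m : ℤ), ∀ h ∈ H587.co 𝒜 l (d, m),
      E1 h ∈ H587.co 𝒜 l (d + (N0 + N1), m + (N0 + N1) • l μ - a) := by
    intro d m h hh
    have h1 := hmul f1 hf1L N1 N0 D1 hD1 d m h hh
    rwa [add_comm N1 N0] at h1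
  have hE0φ : ∀ h, φ (E0 h) = φ f ^ (N0 + N1) * δa h := by
    intro h
    rw [hE0, map_mul, map_pow, hD0φ, pow_add]
    ring
  have hE1φ : ∀ h, φ (E1 h) = φ f1 ^ (N0 + N1) * δa h := by
    intro h
    rw [hE1, map_mul, map_pow, hD1φ, pow_add]
    ring
  have hglue := glue C D hle ha hE0d hE1d hE0φ hE1φ
  -- the extension
  have hlow1 : ∀ m, ∀ h ∈ H587.co 𝒜 l (1, m), h ≠ 0 → l μ ≤ m := by
    intro m h hh hne
    by_contra hlt
    apply hne
    refine co_nonneg D hh ?_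
    rw [one_smul]
    omega
  have hfL' : f ∈ H587.co 𝒜 l (1, l μ) := by
    rwa [one_smul] at hfL
  have hdiv := extension2 hX' ha (fun q ν hq hq' χ hχ => weight_le_co hX hg ha hE.le hq hq' hχ)
    hlow1 hfL' C.f_ne (f1 := f1)
    (fun q hq hq' => (cover D C.hf (fun h => hq (H587.isVertex_co.2 h)) hq').1) (N0 + N1) E0 E1
    hE0d hglue
  obtain ⟨E, hE'⟩ := H644.exists_div_derivation (pow_ne_zero (N0 + N1) C.f_ne) E0 hdiv
  refine ⟨E, fun d m h hh => ?_, fun h => ?_⟩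
  · have h1 := hE0d d m h hh
    rw [hE' h] at h1
    have h2 : f ^ (N0 + N1) ∈ H587.co 𝒜 l (N0 + N1, (N0 + N1) • l μ) := by
      have h3 := low_pow hfL (N0 + N1)
      rwa [mul_one] at h3
    apply H644.mem_of_mul_mem_graded (pow_ne_zero (N0 + N1) C.f_ne) h2 (j := (d, m - a))
    have h3 : ((N0 + N1, (N0 + N1) • l μ) : ℕ × ℤ) + (d, m - a) =
        (d + (N0 + N1), m + (N0 + N1) • l μ - a) := by
      apply Prod.ext
      · change N0 + N1 + d = d + (N0 + N1)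
        ring
      · change (N0 + N1) • l μ + (m - a) = m + (N0 + N1) • l μ - a
        ring
    rw [h3]
    exact h1
  · have hφf : φ f ≠ 0 := by
      rw [D.phif]
      exact pow_ne_zero _ (MvPolynomial.X_ne_zero _)
    have h1 : φ (E h) = δa h := by
      apply mul_left_cancel₀ (pow_ne_zero (N0 + N1) hφf)
      rw [← map_pow, ← map_mul, ← hE' h, hE0φ, map_pow]
    rw [hzφ]
    change MvPolynomial.aeval ![s0, t0] (φ (E h)) = v h
    rw [h1, hval]

end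

end Vale.Agent.P280.H127
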