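import Vale.Agent.P280.H127.EdgeD

/-!
P280 (B1): weights on the edges of the convex hull.
-/

open DirectSum Vale.Agent.P280.T

namespace Vale.Agent.P280.H127

/-- The base of the transport, when the lowest component of `l` is a point or a projective
line. -/
theorem baseExt_edge {M : Type} [AddCommGroup M] [DecidableEq M] {R : Type} [CommRing R]
    [Algebra ℂ R] {𝒜 : ℕ × M → Submodule ℂ R} [GradedAlgebra 𝒜]
    (hX : IsTorusManifold 𝒜) (hN : NefOnRationalCurves 𝒜) {g : M →+ ℤ}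
    (hg : Set.InjOn g (H587.wts 𝒜)) {l : M →+ ℤ} {a : ℤ} (ha : 0 < a) (hE : IsEdge 𝒜 l a) :
    BaseExt 𝒜 l a := by
  obtain ⟨p, μ, hp0, hp, hpw, hlow⟩ := exists_lex_source hX hE.iso hg l
  obtain ⟨f, hf, hpf⟩ := exists_deg_one_ne hX.gen hp0 hp
  have hμ : μ ∈ H587.wts 𝒜 := ⟨f, hf, fun h0 => hpf (by rw [h0, map_zero])⟩
  intro k hk hex q hq hq' v hv hvw
  have hkμ : k = l μ := slope_unique hμ hlow hk hex
  subst hkμ
  by_cases hcase : ∃ χ, TangentWeight 𝒜 p μ χ ∧ l χ = 0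
  · exact baseExt_of_line hX hN hg ha hE hp0 hp hpw hcase hq hq' hv hvw
  · have hs : IsSource 𝒜 l p μ a := by
      refine ⟨hp0, hp, fun χ hχ => ⟨?_, hE.le p μ χ hp0 hp hχ⟩⟩
      rcases hpw χ hχ with h | ⟨h, -⟩
      · exact h
      · exact absurd ⟨χ, hχ, h⟩ hcase
    exact (H939.theoremI_all R (H587.co 𝒜 l) (H587.isTorusManifold_co hX) (H587.nef_co hN) p (l μ)
      a ha (H587.isSource_co hs) q (l μ) (fun h => hq (H587.isVertex_co.1 h)) hq').2 v hv hvw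

variable {r : ℕ} {R : Type} [CommRing R] [Algebra ℂ R] {𝒜 : ℕ × (Fin r → ℤ) → Submodule ℂ R}
  [GradedAlgebra 𝒜]

/-- **Corollary E.** The fixed points of the torus are isolated, the weights at each of them are
pairwise independent, and each tangent weight lies on an edge of the convex hull of all the tangent
weights or is a vertex of it: then `X` is homogeneous. -/
theorem corollaryE (hX : IsTorusManifold 𝒜) (hN : NefOnRationalCurves 𝒜)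
    (hiso : ∀ x ν, ¬ IsVertex 𝒜 x → IsFixed 𝒜 x ν → ¬ TangentWeight 𝒜 x ν 0)
    (hind : ∀ x ν ω ω', ¬ IsVertex 𝒜 x → IsFixed 𝒜 x ν → TangentWeight 𝒜 x ν ω →
      TangentWeight 𝒜 x ν ω' → (∃ a b : ℤ, a ≠ 0 ∧ b ≠ 0 ∧ a • ω = b • ω') → ω = ω')
    (hmult : ∀ x ν ω, ¬ IsVertex 𝒜 x → IsFixed 𝒜 x ν → TangentWeight 𝒜 x ν ω →
      ∀ v v' : R →ₗ[ℂ] ℂ, IsTangent x v → HasWeight 𝒜 ν ω v → IsTangent x v' →
        HasWeight 𝒜 ν ω v' → ∃ c c' : ℂ, (c ≠ 0 ∨ c' ≠ 0) ∧ ∀ h, c * v h + c' * v' h = 0)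
    (hedge : ∀ x ν χ, ¬ IsVertex 𝒜 x → IsFixed 𝒜 x ν → TangentWeight 𝒜 x ν χ →
      ∃ (l : (Fin r → ℤ) →+ ℤ) (δ : Fin r → ℤ), 0 < l χ ∧ ∀ y ξ ω, ¬ IsVertex 𝒜 y →
        IsFixed 𝒜 y ξ → TangentWeight 𝒜 y ξ ω →
          l ω ≤ l χ ∧ (l ω = l χ → ∃ a b : ℤ, b ≠ 0 ∧ b • (ω - χ) = a • δ)) :
    IsHomogeneousManifold 𝒜 ∧ IsTransitive 𝒜 := by
  obtain ⟨g, hg⟩ := H587.exists_generic (finite_weights hX)
  refine full_of_liftable hX hiso fun x ν χ hx0 hx hχ => ?_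
  obtain ⟨l, δ, hl, hmax⟩ := hedge x ν χ hx0 hx hχ
  by_cases hδ : δ = 0
  · refine liftable_of_isExtremal hX hN (H587.isExtremal_of_vertex hX hiso g hg hx0 hx hχ l ?_)
    intro y ξ ω hy0 hy hω hne
    obtain ⟨h1, h2⟩ := hmax y ξ ω hy0 hy hω
    refine lt_of_le_of_ne h1 fun heq => hne ?_
    obtain ⟨a, b, hb, hab⟩ := h2 heq
    rw [hδ, smul_zero] at hab
    exact sub_eq_zero.1 ((smul_eq_zero.1 hab).resolve_left hb)
  · obtain ⟨l', hl', hE⟩ := exists_isEdge hX hiso hind hmult hx0 hx hχ hδ l hl hmax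
    exact liftable_of_base hX hN hg hl' hE.le (baseExt_edge hX hN hg hl' hE)

end Vale.Agent.P280.H127
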