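import Vale.Agent.P280.T.Ext3

/-!
P280 (S4): the extension theorem when the source is not isolated.
-/

open DirectSum Vale.Agent.P280.T

namespace Vale.Agent.P280.H127

variable {R : Type} [CommRing R] [Algebra ℂ R] {𝒜 : ℕ × ℤ → Submodule ℂ R} [GradedAlgebra 𝒜]

/-- **Extension theorem** : a derivation `D0 / f0 ^ N` of degree zero and weight `-a`, where `f0` has
the lowest slope, which is regular at the fixed points of lowest slope, maps `R` to `R`, if all
tangent weights are at most `a`. -/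
theorem extension_gen (hX : IsTorusManifold 𝒜) {a : ℤ} (ha : 0 < a)
    (hbound : ∀ (q : R →ₐ[ℂ] ℂ) (ν : ℤ), ¬ IsVertex 𝒜 q → IsFixed 𝒜 q ν →
      ∀ χ, TangentWeight 𝒜 q ν χ → χ ≤ a)
    {μ : ℤ} (hlow : ∀ m, ∀ h ∈ 𝒜 (1, m), h ≠ 0 → μ ≤ m) {f0 : R} (hf : f0 ∈ 𝒜 (1, μ))
    (hf0 : f0 ≠ 0) (N : ℕ) (D0 : Derivation ℂ R R)
    (hD : ∀ (d : ℕ) (m : ℤ), ∀ h ∈ 𝒜 (d, m), D0 h ∈ 𝒜 (d + N, m + N • μ - a))
    (hcov : ∀ q : R →ₐ[ℂ] ℂ, ¬ IsVertex 𝒜 q → IsFixed 𝒜 q μ →
      ∃ r, q r ≠ 0 ∧ ∀ h, f0 ^ N ∣ r * D0 h) :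
    ∀ h, f0 ^ N ∣ D0 h := by
  have := hX.finiteType
  have := hX.domain
  have := hX.normal
  have : IsNoetherianRing R := Algebra.FiniteType.isNoetherianRing ℂ R
  have hg : f0 ^ N ∈ 𝒜 (N, N • μ) := by
    have h1 := SetLike.pow_mem_graded N hf
    have h2 : (N • ((1, μ) : ℕ × ℤ)) = (N, N • μ) := by
      ext
      · simp
      · simp
    rwa [h2] at h1
  have hg0 : f0 ^ N ≠ 0 := pow_ne_zero N hf0
  have hgc : f0 ^ N ∈ cond (f0 ^ N) D0 := fun h => dvd_mul_right _ _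
  suffices h1 : (1 : R) ∈ cond (f0 ^ N) D0 by
    intro h
    have := h1 h
    rwa [one_mul] at this
  by_contra hcon
  by_cases hne : ∃ z : R →ₐ[ℂ] ℂ, (∀ x ∈ cond (f0 ^ N) D0, z x = 0) ∧ ¬ IsVertex 𝒜 z
  · obtain ⟨ν, q, hqv, hqa, hfix, hslope, -⟩ := exists_lowest hX (AddMonoidHom.id ℤ)
      (I := cond (f0 ^ N) D0)
      (fun x hx i => cond_homogeneous (𝒜 := 𝒜) hg D0.toLinearMap
        (fun i h hh => ⟨_, hD i.1 i.2 h hh⟩) hx i) hne
    have hfix' : IsFixed 𝒜 q ν := fun d m h hh h0 => hfix d m h hh h0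
    obtain ⟨g1, hg1, hg1'⟩ := exists_deg_one_ne hX.gen hqv hfix'
    have hμν : μ < ν := by
      apply lt_of_le_of_ne
      · exact hlow ν g1 hg1 (fun h0 => hg1' (by rw [h0, map_zero]))
      · rintro rfl
        obtain ⟨r, hr, hr'⟩ := hcov q hqv hfix'
        exact hr (hqa r hr')
    refine ext_local hX ha hqv hfix' (hbound q ν hqv hfix') (g := f0 ^ N) (γ := tw ν (N, N • μ))
      (mem_coarse hg rfl) hg0 D0 ?_ ?_ hqa ?_
    · intro k h hh
      refine coarse_induction (P := fun h => D0 h ∈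
        coarse 𝒜 (tw ν) (k + tw ν (N, N • μ) - a)) ?_ ?_ ?_ hh
      · rw [map_zero]
        exact Submodule.zero_mem _
      · intro x y hx hy
        rw [map_add]
        exact Submodule.add_mem _ hx hy
      · rintro ⟨d, m⟩ hk x hx
        refine mem_coarse (hD d m x hx) ?_
        rw [tw_apply] at hk ⊢
        rw [tw_apply, ← hk]
        simp only [add_smul]
        ring
    · intro w hw x hx
      refine coarse_induction (P := fun x => x ∈ (cond (f0 ^ N) D0).radical) ?_ ?_ ?_ hx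
      · exact Ideal.zero_mem _
      · intro x y hx hy
        exact Ideal.add_mem _ hx hy
      · rintro ⟨d, m⟩ hk x hx
        by_contra h0
        have h1 := hslope d m x hx h0
        rw [tw_apply] at hk
        have h2 : (AddMonoidHom.id ℤ) m = m := rfl
        rw [h2] at h1
        linarith
    · refine ⟨μ - ν, by linarith, f0, mem_coarse hf ?_, hf0⟩
      rw [tw_apply, one_smul]
  · push Not at hne
    by_cases hR : ∀ m, ∀ h ∈ 𝒜 (1, m), h ≠ 0 → m = μ
    · -- `D0 = 0`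
      have hD1 : ∀ m, ∀ h ∈ 𝒜 (1, m), D0 h = 0 := by
        intro m h hh
        by_contra h0
        have hh0 : h ≠ 0 := by
          rintro rfl
          exact h0 (map_zero D0)
        have hm := hR m h hh hh0
        subst hm
        have h2 := slope_le_of_ne hX hlow _ _ _ (hD 1 m h hh) h0
        rw [add_smul, one_smul] at h2
        linarith
      have hD0 : ∀ x : R, D0 x = 0 := by
        intro x
        have hx : x ∈ Algebra.adjoin ℂ {h : R | ∃ m : ℤ, h ∈ 𝒜 (1, m)} := by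
          rw [hX.gen]; trivial
        induction hx using Algebra.adjoin_induction with
        | mem x hx =>
          obtain ⟨m, hm⟩ := hx
          exact hD1 m x hm
        | algebraMap r => exact D0.map_algebraMap r
        | add x y _ _ hx hy => rw [map_add, hx, hy, add_zero]
        | mul x y _ _ hx hy => rw [D0.leibniz, hx, hy, smul_zero, smul_zero, add_zero]
      apply hcon
      intro h
      rw [hD0, mul_zero]
      exact dvd_zero _
    · push Not at hR
      obtain ⟨m1, h1, hh1, hne1, hm1⟩ := hR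
      have hle : cond (f0 ^ N) D0 ≠ ⊤ := fun h => hcon (h ▸ Submodule.mem_top)
      obtain ⟨P, hP, hPle⟩ := Ideal.exists_le_maximal _ hle
      obtain ⟨e, rfl⟩ := exists_hom P
      have hev : IsVertex 𝒜 e := hne e (fun x hx => mem_mx.1 (hPle hx))
      obtain ⟨Q, hQ, hQm⟩ := Ideal.exists_minimalPrimes_le hPle
      have hQp : Q.IsPrime := hQ.isPrime
      have hQe : Q = mx e := by
        by_contra hne'
        obtain ⟨z, hz, hze⟩ := exists_hom_ne hQp hne' hQm
        apply hze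
        have hzv : IsVertex 𝒜 z := hne z (fun x hx => mem_mx.1 (hz (hQ.1.2 hx)))
        apply algHom_ext_graded 𝒜
        rintro ⟨d, m⟩ x hx
        by_cases hd : d = 0
        · subst hd
          obtain ⟨c, rfl⟩ := hX.zero m x hx
          rw [AlgHom.commutes, AlgHom.commutes]
        · rw [hzv d m (Nat.pos_of_ne_zero hd) x hx, hev d m (Nat.pos_of_ne_zero hd) x hx]
      have hQh := cond_height hg0 D0 hQ
      rw [hQe] at hQh
      exact two_le_height hX hf hf0 hlow hm1 hh1 hne1 hev hQh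

/-- **Extension theorem, two charts** : derivations `D0 / f0 ^ N = D1 / f1 ^ N` of degree zero and
weight `-a`, where `f0`, `f1` have the lowest slope and do not vanish simultaneously on the fixed
points of lowest slope, map `R` to `R`, if all tangent weights are at most `a`. -/
theorem extension2 (hX : IsTorusManifold 𝒜) {a : ℤ} (ha : 0 < a)
    (hbound : ∀ (q : R →ₐ[ℂ] ℂ) (ν : ℤ), ¬ IsVertex 𝒜 q → IsFixed 𝒜 q ν →
      ∀ χ, TangentWeight 𝒜 q ν χ → χ ≤ a)
    {μ : ℤ} (hlow : ∀ m, ∀ h ∈ 𝒜 (1, m), h ≠ 0 → μ ≤ m) {f0 f1 : R} (hf : f0 ∈ 𝒜 (1, μ))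
    (hf0 : f0 ≠ 0)
    (hcov : ∀ q : R →ₐ[ℂ] ℂ, ¬ IsVertex 𝒜 q → IsFixed 𝒜 q μ → q f0 ≠ 0 ∨ q f1 ≠ 0) (N : ℕ)
    (D0 : Derivation ℂ R R) (D1 : R → R)
    (hD : ∀ (d : ℕ) (m : ℤ), ∀ h ∈ 𝒜 (d, m), D0 h ∈ 𝒜 (d + N, m + N • μ - a))
    (h01 : ∀ h, f1 ^ N * D0 h = f0 ^ N * D1 h) :
    ∀ h, f0 ^ N ∣ D0 h := by
  refine extension_gen hX ha hbound hlow hf hf0 N D0 hD fun q hq hq' => ?_
  rcases hcov q hq hq' with h | h
  · exact ⟨f0 ^ N, by rw [map_pow]; exact pow_ne_zero _ h, fun h => dvd_mul_right _ _⟩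
  · exact ⟨f1 ^ N, by rw [map_pow]; exact pow_ne_zero _ h, fun h => ⟨D1 h, h01 h⟩⟩

end Vale.Agent.P280.H127
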