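import Vale.Agent.P280.H127.EdgeE

/-!
P280: lower bound for the weights of any one-parameter group; the opposite of a weight on an edge
of the convex hull of the weights.
-/

open DirectSum Vale.Agent.P280.T

namespace Vale.Agent.P280.H127

section
variable {M : Type} [AddCommGroup M] [DecidableEq M] {R : Type} [CommRing R] [Algebra ℂ R]
variable {𝒜 : ℕ × M → Submodule ℂ R} [GradedAlgebra 𝒜]

/-- If the fixed points of the torus are isolated and all `l`-weights are at most `a`, then they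
are at least `-a`. -/
theorem neg_le_all (hX : IsTorusManifold 𝒜) (hN : NefOnRationalCurves 𝒜)
    (hiso : ∀ (x : R →ₐ[ℂ] ℂ) (ν : M), ¬ IsVertex 𝒜 x → IsFixed 𝒜 x ν → ¬ TangentWeight 𝒜 x ν 0)
    {g : M →+ ℤ} (hg : Set.InjOn g (H587.wts 𝒜)) (l : M →+ ℤ) {a : ℤ} (ha : 0 < a)
    (hmax : ∀ (x : R →ₐ[ℂ] ℂ) (ν ω : M), ¬ IsVertex 𝒜 x → IsFixed 𝒜 x ν →
      TangentWeight 𝒜 x ν ω → l ω ≤ a) :
    ∀ (x : R →ₐ[ℂ] ℂ) (ν ω : M), ¬ IsVertex 𝒜 x → IsFixed 𝒜 x ν → TangentWeight 𝒜 x ν ω →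
      -a ≤ l ω := by
  obtain ⟨K, hK0, hK⟩ := H587.exists_bound (S := H587.wts 𝒜) (finite_weights hX) g
  let l' : M →+ ℤ := (2 * K + 1) • l + g
  have hl' : ∀ m, l' m = (2 * K + 1) * l m + g m := fun m => by
    change (2 * K + 1) • l m + g m = _
    rw [smul_eq_mul]
  have hinj : Set.InjOn l' (H587.wts 𝒜) := by
    intro a ha b hb hab
    apply hg ha hb
    have h1 : (2 * K + 1) * l (a - b) + g (a - b) = 0 := by
      have : l' (a - b) = 0 := by rw [map_sub, hab, sub_self]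
      rwa [hl'] at this
    have h2 := abs_le.1 (hK a ha b hb)
    have h3 : l (a - b) = 0 := by
      by_contra hne
      rcases lt_or_gt_of_ne hne with hlt | hgt
      · nlinarith
      · nlinarith
    rw [h3, mul_zero, zero_add, map_sub] at h1
    exact sub_eq_zero.1 h1
  have hKω : ∀ (x : R →ₐ[ℂ] ℂ) (ν ω : M), ¬ IsVertex 𝒜 x → IsFixed 𝒜 x ν →
      TangentWeight 𝒜 x ν ω → |g ω| ≤ K := by
    intro x ν ω hx hx' hω
    obtain ⟨h1, h2⟩ := H587.tangentWeight_mem hX hx hx' hω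
    have := hK _ h2 _ h1
    rwa [add_sub_cancel_left] at this
  obtain ⟨p, μ, hp0, hp, hpos, -⟩ := H587.exists_source hX hiso l' hinj
  have hs : IsSource 𝒜 l' p μ ((2 * K + 1) * a + K) := by
    refine ⟨hp0, hp, fun χ hχ => ⟨hpos χ hχ, ?_⟩⟩
    rw [hl']
    have h1 := (abs_le.1 (hKω p μ χ hp0 hp hχ)).2
    have h2 := hmax p μ χ hp0 hp hχ
    have h3 : (2 * K + 1) * l χ ≤ (2 * K + 1) * a := mul_le_mul_of_nonneg_left h2 (by omega)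
    omega
  have hA : 0 < (2 * K + 1) * a + K := by
    have : 0 < (2 * K + 1) * a := mul_pos (by omega) ha
    omega
  intro x ν ω hx hx' hω
  have h1 := (weight_bounds H939.theoremI_all hX hN hs hA hx hx' hω).1
  rw [hl'] at h1
  have h2 := (abs_le.1 (hKω x ν ω hx hx' hω)).2
  by_contra h3
  push Not at h3
  have h4 : (2 * K + 1) * (l ω + a) ≤ (2 * K + 1) * (-1) :=
    mul_le_mul_of_nonneg_left (by omega) (by omega)
  have h5 : (2 * K + 1) * (l ω + a) = (2 * K + 1) * l ω + (2 * K + 1) * a := by ring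
  omega

omit [DecidableEq M] [GradedAlgebra 𝒜] in
/-- the opposite one-parameter group -/
theorem IsEdge.neg {l : M →+ ℤ} {a : ℤ} (hE : IsEdge 𝒜 l a)
    (hlow : ∀ (x : R →ₐ[ℂ] ℂ) (ν ω : M), ¬ IsVertex 𝒜 x → IsFixed 𝒜 x ν →
      TangentWeight 𝒜 x ν ω → -a ≤ l ω) : IsEdge 𝒜 (-l) a := by
  refine ⟨?_, hE.iso, ?_, ?_⟩
  · intro x ν ω hx hx' hω
    have := hlow x ν ω hx hx' hω
    rw [AddMonoidHom.neg_apply]
    omega
  · intro x ν ω ω' hx hx' hω hω' h1 h2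
    rw [AddMonoidHom.neg_apply, neg_eq_zero] at h1 h2
    exact hE.one x ν ω ω' hx hx' hω hω' h1 h2
  · intro x ν ω hx hx' hω h1
    rw [AddMonoidHom.neg_apply, neg_eq_zero] at h1
    exact hE.mult x ν ω hx hx' hω h1

omit [DecidableEq M] [GradedAlgebra 𝒜] in
/-- multiples of an extreme weight are not weights -/
theorem no_multiple_of_low {l : M →+ ℤ} {χ : M} (hl : 0 < l χ)
    (hlow : ∀ (x : R →ₐ[ℂ] ℂ) (ν ω : M), ¬ IsVertex 𝒜 x → IsFixed 𝒜 x ν →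
      TangentWeight 𝒜 x ν ω → -(l χ) ≤ l ω) (x : R →ₐ[ℂ] ℂ) (ν : M) (w : ℕ) (hw : 2 ≤ w)
    (hx : ¬ IsVertex 𝒜 x) (hx' : IsFixed 𝒜 x ν) : ¬ TangentWeight 𝒜 x ν (-(w • χ)) := by
  intro h
  have h1 := hlow x ν _ hx hx' h
  rw [map_neg, map_nsmul, nsmul_eq_mul] at h1
  have h2 : (2 : ℤ) * l χ ≤ w * l χ :=
    mul_le_mul_of_nonneg_right (by exact_mod_cast hw) hl.le
  linarith

end

/-- the three facts for a vertex of the convex hull of the weights -/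
theorem vertex_facts {M : Type} [AddCommGroup M] [DecidableEq M] {R : Type} [CommRing R]
    [Algebra ℂ R] {𝒜 : ℕ × M → Submodule ℂ R} [GradedAlgebra 𝒜] (hX : IsTorusManifold 𝒜)
    (hN : NefOnRationalCurves 𝒜)
    (hiso : ∀ (x : R →ₐ[ℂ] ℂ) (ν : M), ¬ IsVertex 𝒜 x → IsFixed 𝒜 x ν → ¬ TangentWeight 𝒜 x ν 0)
    {g : M →+ ℤ} (hg : Set.InjOn g (H587.wts 𝒜)) {x : R →ₐ[ℂ] ℂ} {ν χ : M}
    (hx0 : ¬ IsVertex 𝒜 x) (hx : IsFixed 𝒜 x ν) (hχ : TangentWeight 𝒜 x ν χ) (l : M →+ ℤ)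
    (hmax : ∀ (y : R →ₐ[ℂ] ℂ) (ξ ω : M), ¬ IsVertex 𝒜 y → IsFixed 𝒜 y ξ →
      TangentWeight 𝒜 y ξ ω → ω ≠ χ → l ω < l χ) :
    IsExtremal 𝒜 χ ∧ IsExtremal 𝒜 (-χ) ∧ Liftable 𝒜 χ ∧ Liftable 𝒜 (-χ) ∧
      ∀ (x : R →ₐ[ℂ] ℂ) (ν : M) (w : ℕ), 2 ≤ w → ¬ IsVertex 𝒜 x → IsFixed 𝒜 x ν →
        ¬ TangentWeight 𝒜 x ν (-(w • χ)) := by
  obtain ⟨K, hK0, hK⟩ := H587.exists_bound (S := H587.wts 𝒜) (finite_weights hX) g
  let l' : M →+ ℤ := (2 * K + 1) • l + g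
  have hl' : ∀ m, l' m = (2 * K + 1) * l m + g m := fun m => by
    change (2 * K + 1) • l m + g m = _
    rw [smul_eq_mul]
  have hinj : Set.InjOn l' (H587.wts 𝒜) := by
    intro a ha b hb hab
    apply hg ha hb
    have h1 : (2 * K + 1) * l (a - b) + g (a - b) = 0 := by
      have : l' (a - b) = 0 := by rw [map_sub, hab, sub_self]
      rwa [hl'] at this
    have h2 := abs_le.1 (hK a ha b hb)
    have h3 : l (a - b) = 0 := by
      by_contra hne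
      rcases lt_or_gt_of_ne hne with hlt | hgt
      · nlinarith
      · nlinarith
    rw [h3, mul_zero, zero_add, map_sub] at h1
    exact sub_eq_zero.1 h1
  have hinj' : Set.InjOn (-l') (H587.wts 𝒜) := fun a ha b hb hab => hinj ha hb (by
    rw [AddMonoidHom.neg_apply, AddMonoidHom.neg_apply] at hab
    exact neg_injective hab)
  have hKω : ∀ {x : R →ₐ[ℂ] ℂ} {ν ω : M}, ¬ IsVertex 𝒜 x → IsFixed 𝒜 x ν →
      TangentWeight 𝒜 x ν ω → |g ω| ≤ K := by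
    intro x ν ω hx hx' hω
    obtain ⟨h1, h2⟩ := H587.tangentWeight_mem hX hx hx' hω
    have := hK _ h2 _ h1
    rwa [add_sub_cancel_left] at this
  have hmax' : ∀ {y : R →ₐ[ℂ] ℂ} {ξ ω : M}, ¬ IsVertex 𝒜 y → IsFixed 𝒜 y ξ →
      TangentWeight 𝒜 y ξ ω → l' ω ≤ l' χ := by
    intro y ξ ω hy0 hy hω
    by_cases h : ω = χ
    · rw [h]
    · have h1 := hmax y ξ ω hy0 hy hω h
      have h2 := (abs_le.1 (hKω hy0 hy hω)).2
      have h3 := (abs_le.1 (hKω hx0 hx hχ)).1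
      rw [hl', hl']
      have h4 : (2 * K + 1) * (l ω + 1) ≤ (2 * K + 1) * l χ :=
        mul_le_mul_of_nonneg_left (by omega) (by omega)
      have h5 : (2 * K + 1) * (l ω + 1) = (2 * K + 1) * l ω + (2 * K + 1) := by ring
      omega
  obtain ⟨p, μ, hp0, hp, hpos, -⟩ := H587.exists_source hX hiso l' hinj
  have hs : IsSource 𝒜 l' p μ (l' χ) := ⟨hp0, hp, fun ω hω => ⟨hpos ω hω, hmax' hp0 hp hω⟩⟩
  have ha : 0 < l' χ := H587.pos_of_isSource hX hs hx0 hχ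
  have hlow : ∀ (x : R →ₐ[ℂ] ℂ) (ν ω : M), ¬ IsVertex 𝒜 x → IsFixed 𝒜 x ν →
      TangentWeight 𝒜 x ν ω → -(l' χ) ≤ l' ω := fun x ν ω hx hx' hω =>
    (weight_bounds H939.theoremI_all hX hN hs ha hx hx' hω).1
  obtain ⟨q, ξ, hq0, hq, hqpos, -⟩ := H587.exists_source hX hiso (-l') hinj'
  have hs' : IsSource 𝒜 (-l') q ξ ((-l') (-χ)) := by
    refine ⟨hq0, hq, fun ω hω => ⟨hqpos ω hω, ?_⟩⟩
    have h1 := hlow q ξ ω hq0 hq hω
    rw [AddMonoidHom.neg_apply, AddMonoidHom.neg_apply, map_neg, neg_neg]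
    omega
  have h1 : IsExtremal 𝒜 χ := ⟨l', p, μ, hs⟩
  have h2 : IsExtremal 𝒜 (-χ) := ⟨-l', q, ξ, hs'⟩
  exact ⟨h1, h2, liftable_of_isExtremal hX hN h1, liftable_of_isExtremal hX hN h2,
    no_multiple_of_low ha hlow⟩

/-- the three facts for an edge of the convex hull of the weights -/
theorem edge_facts {r : ℕ} {R : Type} [CommRing R] [Algebra ℂ R]
    {𝒜 : ℕ × (Fin r → ℤ) → Submodule ℂ R} [GradedAlgebra 𝒜] (hX : IsTorusManifold 𝒜)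
    (hN : NefOnRationalCurves 𝒜)
    (hiso : ∀ x ν, ¬ IsVertex 𝒜 x → IsFixed 𝒜 x ν → ¬ TangentWeight 𝒜 x ν 0)
    (hind : ∀ x ν ω ω', ¬ IsVertex 𝒜 x → IsFixed 𝒜 x ν → TangentWeight 𝒜 x ν ω →
      TangentWeight 𝒜 x ν ω' → (∃ a b : ℤ, a ≠ 0 ∧ b ≠ 0 ∧ a • ω = b • ω') → ω = ω')
    (hmult : ∀ x ν ω, ¬ IsVertex 𝒜 x → IsFixed 𝒜 x ν → TangentWeight 𝒜 x ν ω →
      ∀ v v' : R →ₗ[ℂ] ℂ, IsTangent x v → HasWeight 𝒜 ν ω v → IsTangent x v' →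
        HasWeight 𝒜 ν ω v' → ∃ c c' : ℂ, (c ≠ 0 ∨ c' ≠ 0) ∧ ∀ h, c * v h + c' * v' h = 0)
    {x : R →ₐ[ℂ] ℂ} {ν χ : Fin r → ℤ} (hx0 : ¬ IsVertex 𝒜 x) (hx : IsFixed 𝒜 x ν)
    (hχ : TangentWeight 𝒜 x ν χ) (l : (Fin r → ℤ) →+ ℤ) (δ : Fin r → ℤ) (hl : 0 < l χ)
    (hmax : ∀ y ξ ω, ¬ IsVertex 𝒜 y → IsFixed 𝒜 y ξ → TangentWeight 𝒜 y ξ ω →
      l ω ≤ l χ ∧ (l ω = l χ → ∃ a b : ℤ, b ≠ 0 ∧ b • (ω - χ) = a • δ)) :
    Liftable 𝒜 χ ∧ Liftable 𝒜 (-χ) ∧ ∀ (x : R →ₐ[ℂ] ℂ) (ν : Fin r → ℤ) (w : ℕ), 2 ≤ w →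
      ¬ IsVertex 𝒜 x → IsFixed 𝒜 x ν → ¬ TangentWeight 𝒜 x ν (-(w • χ)) := by
  obtain ⟨g, hg⟩ := H587.exists_generic (finite_weights hX)
  by_cases hδ : δ = 0
  · refine (vertex_facts hX hN hiso hg hx0 hx hχ l ?_).2.2
    intro y ξ ω hy0 hy hω hne
    obtain ⟨h1, h2⟩ := hmax y ξ ω hy0 hy hω
    refine lt_of_le_of_ne h1 fun heq => hne ?_
    obtain ⟨a, b, hb, hab⟩ := h2 heq
    rw [hδ, smul_zero] at hab
    exact sub_eq_zero.1 ((smul_eq_zero.1 hab).resolve_left hb)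
  · obtain ⟨l', hl', hE⟩ := exists_isEdge hX hiso hind hmult hx0 hx hχ hδ l hl hmax
    have hlow := neg_le_all hX hN hiso hg l' hl' hE.le
    have hE' := hE.neg hlow
    refine ⟨liftable_of_base hX hN hg hl' hE.le (baseExt_edge hX hN hg hl' hE), ?_,
      no_multiple_of_low hl' hlow⟩
    have h1 : (-l') (-χ) = l' χ := by rw [AddMonoidHom.neg_apply, map_neg, neg_neg]
    rw [← h1] at hE' hl'
    exact liftable_of_base hX hN hg hl' hE'.le (baseExt_edge hX hN hg hl' hE')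

end Vale.Agent.P280.H127
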