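import Vale.Agent.P280.H127.RowC3

/-!
P280: row C. The section `f` does not vanish on the cell of any fixed point, and no derivative of
it vanishes.
-/

open DirectSum Vale.Agent.P280.T Vale.Agent.P280.H812

namespace Vale.Agent.P280.H127

open Polynomial

variable {R : Type} [CommRing R] [Algebra ℂ R] {𝒜 : ℕ × ℤ → Submodule ℂ R} [GradedAlgebra 𝒜]
  {p x : R →ₐ[ℂ] ℂ} {μ a ν : ℤ} {f : R} {s : ℕ} {Y : R →ₐ[ℂ] MvPolynomial (Fin s) ℂ}

/-- the source does not lie in the zero set of `f` -/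
theorem f_ne_zero (H : Hom 𝒜 p μ a f) (hx : ¬ IsVertex 𝒜 x) (hx' : IsFixed 𝒜 x μ) : x f ≠ 0 := by
  obtain ⟨h1, h2⟩ := H939.source_s2 H.man H.src
  have hf0 : f ≠ 0 := by
    intro h0
    have := H.pf
    rw [h0, map_zero] at this
    exact zero_ne_one this
  have hdata : H644.SourceData 𝒜 μ f :=
    ⟨H.hf, hf0, h1, h2 f H.hf (by rw [H.pf]; exact one_ne_zero)⟩
  exact hdata.apply_ne hx hx'

/-- the cell of a fixed point other than the source has positive dimension -/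
theorem cell_pos (H : Hom 𝒜 p μ a f) (hx : ¬ IsVertex 𝒜 x) (hx' : IsFixed 𝒜 x ν)
    (hY : BB 𝒜 a ν x Y) (hν : ν ≠ μ) : s ≠ 0 := by
  rintro rfl
  have hs : ¬ SamePoint 𝒜 p x := by
    rintro ⟨c, hc, h1⟩
    have h2 := h1 1 μ f H.hf
    rw [H.pf, mul_one, pow_one] at h2
    have h3 := hx' 1 μ f H.hf (by rw [h2]; exact hc)
    rw [one_smul] at h3
    exact hν h3.symm
  obtain ⟨χ, hχ, hneg⟩ := H587.exists_neg_of_source H.man H.src hx hx' hs
  obtain ⟨z, hzx, hz1, hz2, -, -⟩ := incoming_T H.man hx hx' hχ hneg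
  apply hzx
  ext h
  have h1 : Y (h - algebraMap ℂ R (x h)) = 0 := by
    rw [map_sub, AlgHom.commutes, MvPolynomial.algebraMap_eq, ← bb_const H hx hx' hY h]
    exact sub_eq_zero.2 (MvPolynomial.eq_C_of_isEmpty _)
  have h2 : h - algebraMap ℂ R (x h) ∈ RingHom.ker z := by
    have h3 := hY.ker _ h1
    refine (Ideal.span_le.2 ?_) h3
    rintro y (⟨d, m, hm, hy⟩ | ⟨d, h', hh', rfl⟩)
    · refine RingHom.mem_ker.2 ?_
      by_contra hne
      exact absurd (hz2 d m y hy hne) (not_le.2 hm)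
    · refine RingHom.mem_ker.2 ?_
      rw [map_sub, AlgHom.commutes, hz1 d _ h' hh' rfl]
      exact sub_self _
  have h3 := RingHom.mem_ker.1 h2
  rw [map_sub, AlgHom.commutes] at h3
  exact sub_eq_zero.1 h3

/-- **Row C**. -/
theorem rowC : RowA → RowB → RowC := by
  intro hA hB R _ _ 𝒜 _ p μ a f H
  have key : ∀ (e : ℕ) (x : R →ₐ[ℂ] ℂ) (ν : ℤ), ¬ IsVertex 𝒜 x → IsFixed 𝒜 x ν →
      ν = μ + e * a → ∀ (s : ℕ) (Y : R →ₐ[ℂ] MvPolynomial (Fin s) ℂ), BB 𝒜 a ν x Y →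
      Y f ≠ 0 ∧ ∀ κ : Fin s → ℂ, κ ≠ 0 → der κ (Y f) ≠ 0 := by
    intro e
    induction e using Nat.strong_induction_on with
    | _ e ih =>
    intro x ν hx hx' he s Y hY
    have hP : (Y f).IsHomogeneous e := hY.hom 1 μ e f H.hf (by rw [one_smul, he])
    have h1 : ∀ κ : Fin s → ℂ, κ ≠ 0 → ∃ e0 < e, ∃ κ' : Fin s → ℂ,
        (line κ' (shift κ (Y f))).coeff e0 ≠ 0 := by
      intro κ hκ
      obtain ⟨x0, ν0, Z, hx0, hx0', hlt, hZf, hZ0, hZ1⟩ := hB R 𝒜 p μ a f H x ν hx hx' s Y hY κ hκ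
      obtain ⟨e0, he0⟩ := hslope H hx0 hx0'
      have hee : e0 < e := by
        by_contra hle
        push Not at hle
        have h2 : (e : ℤ) * a ≤ e0 * a :=
          mul_le_mul_of_nonneg_right (by exact_mod_cast hle) H.pos.le
        rw [he, he0] at hlt
        linarith
      obtain ⟨s0, Y0, hY0⟩ := hA R 𝒜 p μ a f H x0 ν0 hx0 hx0'
      obtain ⟨κ', hκ'⟩ := lead H hx0 hx0' he0 hY0 (ih e0 hee x0 ν0 hx0 hx0' he0 s0 Y0 hY0).1 hZ0 hZ1
      exact ⟨e0, hee, κ', by rwa [hZf] at hκ'⟩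
    refine ⟨?_, ?_⟩
    · rcases Nat.eq_zero_or_pos e with rfl | hpos
      · have hνμ : ν = μ := by rw [he]; simp
        subst hνμ
        have h2 : f ∈ 𝒜 (1, 1 • ν) := by rw [one_smul]; exact H.hf
        rw [hY.zero 1 f h2]
        intro h3
        rw [MvPolynomial.C_eq_zero] at h3
        exact f_ne_zero H hx hx' h3
      · have hνμ : ν ≠ μ := by
          rintro rfl
          have h2 : (0 : ℤ) < e * a := mul_pos (by exact_mod_cast hpos) H.pos
          linarith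
        have hs := cell_pos H hx hx' hY hνμ
        have hκ : (fun _ => 1 : Fin s → ℂ) ≠ 0 := by
          intro h2
          exact one_ne_zero (congrFun h2 ⟨0, Nat.pos_of_ne_zero hs⟩)
        obtain ⟨e0, -, κ', h2⟩ := h1 _ hκ
        intro h3
        apply h2
        rw [h3, map_zero, map_zero, coeff_zero]
    · intro κ hκ h0
      obtain ⟨e0, hlt, κ', h2⟩ := h1 κ hκ
      apply h2
      rw [shift_of_der h0, line_hom κ' hP, coeff_C_mul, coeff_X_pow, if_neg hlt.ne, mul_zero]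
  intro x ν hx hx' s Y hY
  obtain ⟨e, he⟩ := hslope H hx hx'
  exact key e x ν hx hx' he s Y hY

end Vale.Agent.P280.H127
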