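import Vale.Agent.P280.H812.X3

/-!
P280, row C: polynomials along a line.
-/

open Vale.Agent.P280.T

namespace Vale.Agent.P280.H127

open Polynomial

section line
variable {s : ℕ}

/-- restriction to the line `κ` -/
noncomputable def line (κ : Fin s → ℂ) : MvPolynomial (Fin s) ℂ →ₐ[ℂ] ℂ[X] :=
  MvPolynomial.aeval fun i => C (κ i) * X

theorem line_X (κ : Fin s → ℂ) (i : Fin s) : line κ (MvPolynomial.X i) = C (κ i) * X := by
  unfold line
  rw [MvPolynomial.aeval_X]

theorem line_C (κ : Fin s → ℂ) (c : ℂ) : line κ (MvPolynomial.C c) = C c := by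
  unfold line
  rw [MvPolynomial.aeval_C]
  rfl

theorem line_coeff_zero (κ : Fin s → ℂ) (P : MvPolynomial (Fin s) ℂ) :
    (line κ P).coeff 0 = MvPolynomial.constantCoeff P := by
  induction P using MvPolynomial.induction_on with
  | C c => rw [line_C, coeff_C_zero, MvPolynomial.constantCoeff_C]
  | add P Q hP hQ => rw [map_add, coeff_add, hP, hQ, map_add]
  | mul_X P i hP =>
    rw [map_mul, line_X, mul_coeff_zero, hP, map_mul, MvPolynomial.constantCoeff_X, mul_coeff_zero,
      coeff_X_zero, mul_zero]

theorem line_coeff_one (κ : Fin s → ℂ) (P : MvPolynomial (Fin s) ℂ) :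
    (line κ P).coeff 1 = ∑ i, κ i * MvPolynomial.coeff (Finsupp.single i 1) P := by
  induction P using MvPolynomial.induction_on with
  | C c =>
    rw [line_C, coeff_C_succ]
    symm
    apply Finset.sum_eq_zero
    intro i _
    rw [MvPolynomial.coeff_C, if_neg, mul_zero]
    intro h
    have := DFunLike.congr_fun h i
    rw [Finsupp.single_eq_same] at this
    exact absurd this (by simp)
  | add P Q hP hQ =>
    rw [map_add, coeff_add, hP, hQ, ← Finset.sum_add_distrib]
    refine Finset.sum_congr rfl fun i _ => ?_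
    rw [MvPolynomial.coeff_add]
    ring
  | mul_X P i hP =>
    rw [map_mul, line_X, ← mul_assoc, coeff_mul_X, mul_comm, coeff_C_mul, line_coeff_zero]
    rw [Finset.sum_eq_single i]
    · rw [MvPolynomial.coeff_mul_X']
      have h1 : i ∈ (Finsupp.single i 1 : Fin s →₀ ℕ).support := by simp
      rw [if_pos h1]
      have h2 : (Finsupp.single i 1 - Finsupp.single i 1 : Fin s →₀ ℕ) = 0 := by simp
      rw [h2]
      rfl
    · intro j _ hj
      rw [MvPolynomial.coeff_mul_X', if_neg, mul_zero]
      intro h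
      rw [Finsupp.mem_support_iff, Finsupp.single_apply] at h
      by_cases hji : j = i
      · exact hj hji
      · rw [if_neg hji] at h
        exact h rfl
    · intro h
      exact absurd (Finset.mem_univ i) h

theorem line_hom (κ : Fin s → ℂ) {P : MvPolynomial (Fin s) ℂ} {k : ℕ} (hP : P.IsHomogeneous k) :
    line κ P = C (MvPolynomial.eval κ P) * X ^ k := by
  have h0 : MvPolynomial.aeval (fun i => C (κ i)) P = C (MvPolynomial.eval κ P) := by
    have h : (MvPolynomial.aeval (fun i => C (κ i)) : MvPolynomial (Fin s) ℂ →ₐ[ℂ] ℂ[X]) =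
        (Algebra.ofId ℂ ℂ[X]).comp (MvPolynomial.aeval κ) := by
      apply MvPolynomial.algHom_ext
      intro i
      rw [MvPolynomial.aeval_X, AlgHom.comp_apply, MvPolynomial.aeval_X]
      rfl
    rw [h, AlgHom.comp_apply, MvPolynomial.aeval_eq_eval]
    rfl
  rw [← h0]
  unfold line
  rw [MvPolynomial.aeval_def, MvPolynomial.aeval_def, MvPolynomial.eval₂_eq',
    MvPolynomial.eval₂_eq', Finset.sum_mul]
  refine Finset.sum_congr rfl fun e he => ?_
  have h1 : e.degree = k := by
    by_contra hne
    exact (MvPolynomial.mem_support_iff.1 he) (hP.coeff_eq_zero hne)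
  have h2 : ∏ i, (C (κ i) * X) ^ e i = (∏ i, C (κ i) ^ e i) * (X : ℂ[X]) ^ k := by
    simp_rw [mul_pow]
    rw [Finset.prod_mul_distrib, Finset.prod_pow_eq_pow_sum, ← h1, Finsupp.degree_eq_sum]
  rw [h2]
  ring

end line

section shift
open MvPolynomial (pderiv)
variable {s : ℕ}

/-- the values on the translates -/
noncomputable def trans (κ y : Fin s → ℂ) : MvPolynomial (Fin s) ℂ →ₐ[ℂ] ℂ[X] :=
  MvPolynomial.aeval fun i => C (y i) + C (κ i) * X

theorem trans_X (κ y : Fin s → ℂ) (i : Fin s) :
    trans κ y (MvPolynomial.X i) = C (y i) + C (κ i) * X := by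
  unfold trans
  rw [MvPolynomial.aeval_X]

theorem trans_C (κ y : Fin s → ℂ) (c : ℂ) : trans κ y (MvPolynomial.C c) = C c := by
  unfold trans
  rw [MvPolynomial.aeval_C]
  rfl

theorem der_C (κ : Fin s → ℂ) (c : ℂ) : H812.der κ (MvPolynomial.C c) = 0 := by
  unfold H812.der
  apply Finset.sum_eq_zero
  intro i _
  rw [MvPolynomial.pderiv_C, smul_zero]

theorem der_add (κ : Fin s → ℂ) (P Q : MvPolynomial (Fin s) ℂ) :
    H812.der κ (P + Q) = H812.der κ P + H812.der κ Q := by
  unfold H812.der
  rw [← Finset.sum_add_distrib]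
  refine Finset.sum_congr rfl fun i _ => ?_
  rw [map_add, smul_add]

theorem der_mul (κ : Fin s → ℂ) (P Q : MvPolynomial (Fin s) ℂ) :
    H812.der κ (P * Q) = P * H812.der κ Q + Q * H812.der κ P := by
  unfold H812.der
  rw [Finset.mul_sum, Finset.mul_sum, ← Finset.sum_add_distrib]
  refine Finset.sum_congr rfl fun i _ => ?_
  rw [Derivation.leibniz, smul_add, smul_eq_mul, smul_eq_mul, mul_smul_comm, mul_smul_comm]

theorem der_X (κ : Fin s → ℂ) (i : Fin s) :
    H812.der κ (MvPolynomial.X i) = MvPolynomial.C (κ i) := by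
  unfold H812.der
  rw [Finset.sum_eq_single i]
  · rw [MvPolynomial.pderiv_X_self, MvPolynomial.smul_eq_C_mul, mul_one]
  · intro j _ hj
    rw [MvPolynomial.pderiv_X_of_ne (Ne.symm hj), smul_zero]
  · intro h
    exact absurd (Finset.mem_univ i) h

theorem trans_derivative (κ y : Fin s → ℂ) (P : MvPolynomial (Fin s) ℂ) :
    derivative (trans κ y P) = trans κ y (H812.der κ P) := by
  induction P using MvPolynomial.induction_on with
  | C c => rw [der_C, trans_C, derivative_C, map_zero]
  | add P Q hP hQ => rw [map_add, derivative_add, hP, hQ, der_add, map_add]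
  | mul_X P i hP =>
    rw [map_mul, derivative_mul, hP, der_mul, der_X, map_add, map_mul, map_mul, trans_C, trans_X,
      derivative_add, derivative_C, derivative_C_mul, derivative_X, zero_add, mul_one]
    ring

theorem eval_shift (κ y : Fin s → ℂ) (P : MvPolynomial (Fin s) ℂ) :
    MvPolynomial.eval y (H812.shift κ P) = (trans κ y P).eval 1 := by
  have h : (MvPolynomial.aeval y : MvPolynomial (Fin s) ℂ →ₐ[ℂ] ℂ).comp (H812.shift κ) =
      (Polynomial.aeval (1 : ℂ)).comp (trans κ y) := by
    apply MvPolynomial.algHom_ext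
    intro i
    rw [AlgHom.comp_apply, AlgHom.comp_apply, trans_X]
    unfold H812.shift
    rw [MvPolynomial.aeval_X]
    simp
  have h1 := DFunLike.congr_fun h P
  rw [AlgHom.comp_apply, AlgHom.comp_apply] at h1
  rw [MvPolynomial.aeval_eq_eval] at h1
  rw [← Polynomial.coe_aeval_eq_eval]
  exact h1

theorem eval_trans_zero (κ y : Fin s → ℂ) (P : MvPolynomial (Fin s) ℂ) :
    (trans κ y P).eval 0 = MvPolynomial.eval y P := by
  have h : (Polynomial.aeval (0 : ℂ)).comp (trans κ y) =
      (MvPolynomial.aeval y : MvPolynomial (Fin s) ℂ →ₐ[ℂ] ℂ) := by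
    apply MvPolynomial.algHom_ext
    intro i
    rw [AlgHom.comp_apply, trans_X]
    simp
  have h1 := DFunLike.congr_fun h P
  rw [AlgHom.comp_apply] at h1
  rw [MvPolynomial.aeval_eq_eval] at h1
  rw [← Polynomial.coe_aeval_eq_eval]
  exact h1

/-- a polynomial whose derivative along `κ` vanishes is invariant under translation by `κ` -/
theorem shift_of_der {κ : Fin s → ℂ} {P : MvPolynomial (Fin s) ℂ} (h : H812.der κ P = 0) :
    H812.shift κ P = P := by
  apply MvPolynomial.funext
  intro y
  rw [eval_shift, ← eval_trans_zero κ y P]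
  have h1 : derivative (trans κ y P) = 0 := by rw [trans_derivative, h, map_zero]
  obtain ⟨c, hc⟩ := Polynomial.natDegree_eq_zero.1
    (Polynomial.derivative_eq_zero.1 h1)
  rw [← hc, eval_C, eval_C]

/-- translation is injective -/
theorem shift_ne {κ : Fin s → ℂ} {P : MvPolynomial (Fin s) ℂ} (h : H812.shift κ P ≠ 0) :
    P ≠ 0 := by
  rintro rfl
  exact h (map_zero _)

end shift

end Vale.Agent.P280.H127
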