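import Vale.Agent.P280.H127.RowC1

/-!
P280, row C: the chart at a fixed point and orders of vanishing.
-/

open DirectSum Vale.Agent.P280.T Vale.Agent.P280.H812

namespace Vale.Agent.P280.H127

open Polynomial

variable {R : Type} [CommRing R] [Algebra ℂ R] {𝒜 : ℕ × ℤ → Submodule ℂ R} [GradedAlgebra 𝒜]
  {p x : R →ₐ[ℂ] ℂ} {μ a ν : ℤ} {f : R}

/-- the grading by relative weights -/
abbrev rg (𝒜 : ℕ × ℤ → Submodule ℂ R) (ν : ℤ) : ℤ → Submodule ℂ R :=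
  coarse 𝒜 (rl (AddMonoidHom.id ℤ) ν)

omit [GradedAlgebra 𝒜] in
theorem mem_rg {d : ℕ} {m : ℤ} {h : R} (hh : h ∈ 𝒜 (d, m)) {k : ℤ} (hk : m - d • ν = k) :
    h ∈ rg 𝒜 ν k := mem_coarse hh (by rw [← hk]; rfl)

omit [GradedAlgebra 𝒜] in
theorem rg_ind {k : ℤ} {P : R → Prop} (h0 : P 0) (hadd : ∀ a b, P a → P b → P (a + b))
    (hmem : ∀ (d : ℕ) (m : ℤ), m - d • ν = k → ∀ h ∈ 𝒜 (d, m), P h) {y : R}
    (hy : y ∈ rg 𝒜 ν k) : P y :=
  coarse_induction h0 hadd (fun i hi h hh => hmem i.1 i.2 hi h hh) hy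

/-- the weights of all elements are divisible by `a` -/
theorem hdvd (H : Hom 𝒜 p μ a f) {d : ℕ} {m : ℤ} {h : R} (hh : h ∈ 𝒜 (d, m)) (hne : h ≠ 0) :
    a ∣ m - d • μ :=
  H587.dvd_of_fixed H.man H.src.1 H.src.2.1 (fun χ hχ => by rw [H.one χ hχ]) d m h hh hne

theorem hlow (H : Hom 𝒜 p μ a f) {d : ℕ} {m : ℤ} {h : R} (hh : h ∈ 𝒜 (d, m)) (hne : h ≠ 0) :
    d • μ ≤ m := (H939.source_s2 H.man H.src).1 d m h hh hne

/-- the slope of a fixed point -/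
theorem hslope (H : Hom 𝒜 p μ a f) (hx : ¬ IsVertex 𝒜 x) (hx' : IsFixed 𝒜 x ν) :
    ∃ e : ℕ, ν = μ + e * a := by
  obtain ⟨g, hg, hgx⟩ := exists_deg_one_ne H.man.gen hx hx'
  have hg0 : g ≠ 0 := fun h0 => hgx (by rw [h0, map_zero])
  obtain ⟨k, hk⟩ := hdvd H hg hg0
  have h1 := hlow H hg hg0
  rw [one_smul] at hk h1
  have hk0 : 0 ≤ k := by
    by_contra h
    push Not at h
    have h2 : a * k < 0 := mul_neg_of_pos_of_neg H.pos h
    omega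
  obtain ⟨e, rfl⟩ := Int.eq_ofNat_of_zero_le hk0
  exact ⟨e, by linarith⟩

theorem hdvd' (H : Hom 𝒜 p μ a f) (hx : ¬ IsVertex 𝒜 x) (hx' : IsFixed 𝒜 x ν) {d : ℕ} {m : ℤ}
    {h : R} (hh : h ∈ 𝒜 (d, m)) (hne : h ≠ 0) : a ∣ m - d • ν := by
  obtain ⟨e, rfl⟩ := hslope H hx hx'
  obtain ⟨k, hk⟩ := hdvd H hh hne
  refine ⟨k - d * e, ?_⟩
  rw [nsmul_eq_mul] at hk ⊢
  linear_combination hk

/-- parameters at a fixed point, of weights at least `- a` -/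
theorem hparams (H : Hom 𝒜 p μ a f) (hx : ¬ IsVertex 𝒜 x) (hx' : IsFixed 𝒜 x ν) :
    ∃ (n : ℕ) (u : Fin n → R) (w : Fin n → ℤ), Gens (rg 𝒜 ν) x u w ∧ ∀ i, -a ≤ w i := by
  obtain ⟨n, u, w, G, hn⟩ := exists_params_T H.man hx (fix_of_isFixed hx')
  refine ⟨n, u, w, G, fun i => ?_⟩
  by_cases h0 : w i = 0
  · rw [h0]
    have := H.pos
    omega
  · exact (weight_bounds H939.theoremI_all H.man H.nef H.src H.pos hx hx'
      (tangentWeight_of_wt H.man hx' G hn h0)).1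

theorem not_X_dvd {P : ℂ[X]} (h : P.coeff 0 ≠ 0) : ¬ X ∣ P := by
  rw [X_dvd_iff]
  exact h

/-- along a curve through `x`, elements of weight `≤ - j a` vanish to order `j` -/
theorem horder (H : Hom 𝒜 p μ a f) (hx : ¬ IsVertex 𝒜 x) (hx' : IsFixed 𝒜 x ν)
    (z : R →ₐ[ℂ] ℂ[X]) (hz : ∀ h, (z h).coeff 0 = x h) (j : ℕ) :
    ∀ w : ℤ, w ≤ -(j * a) → ∀ h ∈ rg 𝒜 ν w, X ^ j ∣ z h := by
  obtain ⟨n, u, wt, G, hwt⟩ := hparams H hx hx'
  have hfix : Fix (rg 𝒜 ν) x := fix_of_isFixed hx'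
  obtain ⟨s, hs0, hs1, hs⟩ := G.gen
  induction j with
  | zero =>
    intro w _ h _
    rw [pow_zero]
    exact one_dvd _
  | succ j ih =>
    intro w hw h hh
    have hw' : w ≤ -(j * a) - a := by
      push_cast at hw
      linarith
    have hja : 0 ≤ (j : ℤ) * a := mul_nonneg (by positivity) H.pos.le
    have hw0 : w ≠ 0 := by
      have := H.pos
      omega
    have hxm : h ∈ mx x := mem_mx.2 (hfix w hw0 h hh)
    obtain ⟨c, hc⟩ := Ideal.mem_span_range_iff_exists_fun.1 (hs h hxm)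
    have hsx : s * h ∈ rg 𝒜 ν w := by
      have := SetLike.mul_mem_graded hs0 hh
      rwa [zero_add] at this
    have h1 : s * h = ∑ i, cp (rg 𝒜 ν) (w - wt i) (c i) * u i := by
      conv_lhs => rw [← cp_of_mem (rg 𝒜 ν) hsx, ← hc, cp_sum]
      exact Finset.sum_congr rfl fun i _ => cp_mul_right (rg 𝒜 ν) (G.hom i) _ _
    have h2 : X ^ (j + 1) ∣ z s * z h := by
      rw [← map_mul, h1, map_sum]
      refine Finset.dvd_sum fun i _ => ?_
      rw [map_mul, pow_succ]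
      refine mul_dvd_mul (ih (w - wt i) ?_ _ (cp_mem _ _ _)) ?_
      · have := hwt i
        linarith
      · rw [X_dvd_iff, hz, G.zero i]
    exact Polynomial.prime_X.pow_dvd_of_dvd_mul_left _
      (not_X_dvd (by rw [hz, hs1]; exact one_ne_zero)) h2

/-- elements of the ideal of the cell at `x`, of weight `≤ - e a`, vanish to order `e + 1` -/
theorem horder_ker (H : Hom 𝒜 p μ a f) (hx : ¬ IsVertex 𝒜 x) (hx' : IsFixed 𝒜 x ν)
    (z : R →ₐ[ℂ] ℂ[X]) (hz : ∀ h, (z h).coeff 0 = x h) (e : ℕ) {y : R}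
    (hy : y ∈ Ideal.span ({h | ∃ (d : ℕ) (m : ℤ), d • ν < m ∧ h ∈ 𝒜 (d, m)} ∪
      {h | ∃ d : ℕ, ∃ h' ∈ 𝒜 (d, d • ν), h = h' - algebraMap ℂ R (x h')})) :
    ∀ (r : R) (w : ℤ), w ≤ -(e * a) → X ^ (e + 1) ∣ z (cp (rg 𝒜 ν) w (r * y)) := by
  refine Submodule.span_induction (p := fun y _ => ∀ (r : R) (w : ℤ), w ≤ -(e * a) →
    X ^ (e + 1) ∣ z (cp (rg 𝒜 ν) w (r * y))) ?_ ?_ ?_ ?_ hy
  · rintro y (⟨d, m, hm, hy⟩ | ⟨d, h', hh', rfl⟩) r w hw
    · by_cases hy0 : y = 0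
      · rw [hy0, mul_zero]
        simp [cp]
      · rw [cp_mul_right (rg 𝒜 ν) (mem_rg hy rfl), map_mul]
        apply Dvd.dvd.mul_right
        refine horder H hx hx' z hz (e + 1) _ ?_ _ (cp_mem _ _ _)
        have h1 : a ≤ m - d • ν := Int.le_of_dvd (by linarith) (hdvd' H hx hx' hy hy0)
        push_cast
        linarith
    · have h0 : h' - algebraMap ℂ R (x h') ∈ rg 𝒜 ν 0 := by
        refine Submodule.sub_mem _ (mem_rg hh' (by simp)) ?_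
        exact SetLike.algebraMap_mem_graded (rg 𝒜 ν) _
      rw [cp_mul_right (rg 𝒜 ν) h0, map_mul, sub_zero, pow_succ]
      refine mul_dvd_mul (horder H hx hx' z hz e w hw _ (cp_mem _ _ _)) ?_
      rw [X_dvd_iff, hz, map_sub, AlgHom.commutes]
      simp
  · intro r w _
    rw [mul_zero]
    simp [cp]
  · intro y y' _ _ h1 h2 r w hw
    rw [mul_add, cp_add, map_add]
    exact dvd_add (h1 r w hw) (h2 r w hw)
  · intro c y _ h1 r w hw
    rw [smul_eq_mul, ← mul_assoc]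
    exact h1 (r * c) w hw

end Vale.Agent.P280.H127
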