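import Vale.Agent.P280.H127.RowC2

/-!
P280, row C: the leading form of the section `f` in the transported chart.
-/

open DirectSum Vale.Agent.P280.T Vale.Agent.P280.H812

namespace Vale.Agent.P280.H127

open Polynomial

theorem aeval_scale {B : Type*} [CommRing B] [Algebra ℂ B] {s : ℕ} {P : MvPolynomial (Fin s) ℂ}
    {D : ℕ} (hP : P.IsHomogeneous D) (c : B) (r : Fin s → B) :
    MvPolynomial.aeval (fun i => c * r i) P = c ^ D * MvPolynomial.aeval r P := by
  rw [MvPolynomial.aeval_def, MvPolynomial.aeval_def, MvPolynomial.eval₂_eq',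
    MvPolynomial.eval₂_eq', Finset.mul_sum]
  refine Finset.sum_congr rfl fun e he => ?_
  have h1 : e.degree = D := by
    by_contra hne
    exact (MvPolynomial.mem_support_iff.1 he) (hP.coeff_eq_zero hne)
  have h2 : ∏ i, (c * r i) ^ e i = c ^ D * ∏ i, r i ^ e i := by
    simp_rw [mul_pow]
    rw [Finset.prod_mul_distrib, Finset.prod_pow_eq_pow_sum, ← h1, Finsupp.degree_eq_sum]
  rw [h2]
  ring

theorem coeff_zero_aeval {s : ℕ} (P : MvPolynomial (Fin s) ℂ) (q : Fin s → ℂ[X]) :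
    (MvPolynomial.aeval q P).coeff 0 = MvPolynomial.eval (fun i => (q i).coeff 0) P := by
  have h : (Polynomial.aeval (0 : ℂ)).comp (MvPolynomial.aeval q) =
      (MvPolynomial.aeval (fun i => (q i).coeff 0) : MvPolynomial (Fin s) ℂ →ₐ[ℂ] ℂ) := by
    apply MvPolynomial.algHom_ext
    intro i
    rw [AlgHom.comp_apply, MvPolynomial.aeval_X, MvPolynomial.aeval_X,
      Polynomial.coeff_zero_eq_aeval_zero]
  have h1 := DFunLike.congr_fun h P
  rw [AlgHom.comp_apply, ← Polynomial.coeff_zero_eq_aeval_zero, MvPolynomial.aeval_eq_eval] at h1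
  exact h1

variable {R : Type} [CommRing R] [Algebra ℂ R] {𝒜 : ℕ × ℤ → Submodule ℂ R} [GradedAlgebra 𝒜]
  {p x : R →ₐ[ℂ] ℂ} {μ a ν : ℤ} {f : R}

theorem aeval_mem_rg {s : ℕ} {g : Fin s → R} {c : ℤ} (hg : ∀ i, g i ∈ rg 𝒜 ν c)
    {P : MvPolynomial (Fin s) ℂ} {k : ℕ} (hP : P.IsHomogeneous k) :
    MvPolynomial.aeval g P ∈ rg 𝒜 ν (k * c) := by
  rw [MvPolynomial.aeval_def, MvPolynomial.eval₂_eq']
  refine Submodule.sum_mem _ fun e he => ?_
  have h1 : e.degree = k := by
    by_contra hne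
    exact (MvPolynomial.mem_support_iff.1 he) (hP.coeff_eq_zero hne)
  have h2 := SetLike.prod_pow_mem_graded (rg 𝒜 ν) (F := Finset.univ) (i := fun _ : Fin s => c)
    (g := g) (fun i => e i) (fun i _ => hg i)
  have h3 : ∑ i : Fin s, (e i) • c = k * c := by
    rw [← Finset.sum_smul, ← Finsupp.degree_eq_sum, h1, nsmul_eq_mul]
  rw [h3] at h2
  have h4 := SetLike.mul_mem_graded
    (SetLike.algebraMap_mem_graded (rg 𝒜 ν) (MvPolynomial.coeff e P)) h2
  rwa [zero_add] at h4

section bb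
variable {s : ℕ} {Y : R →ₐ[ℂ] MvPolynomial (Fin s) ℂ}

theorem bb_cases (H : Hom 𝒜 p μ a f) (hx : ¬ IsVertex 𝒜 x) (hx' : IsFixed 𝒜 x ν)
    (hY : BB 𝒜 a ν x Y) {d : ℕ} {m : ℤ} {h : R} (hh : h ∈ 𝒜 (d, m)) :
    Y h = 0 ∨ ∃ k : ℕ, m + k * a = d • ν ∧ (Y h).IsHomogeneous k := by
  by_cases h0 : h = 0
  · left
    rw [h0, map_zero]
  by_cases h1 : d • ν < m
  · exact Or.inl (hY.top d m h hh h1)
  · right
    obtain ⟨k, hk⟩ := hdvd' H hx hx' hh h0
    have hk0 : k ≤ 0 := by
      by_contra h2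
      push Not at h2
      have := mul_pos H.pos h2
      omega
    obtain ⟨j, hj⟩ := Int.eq_ofNat_of_zero_le (a := -k) (by omega)
    have h3 : m + j * a = d • ν := by
      have h4 : (j : ℤ) = -k := hj.symm
      rw [h4]
      linear_combination hk
    exact ⟨j, h3, hY.hom d m j h hh h3⟩

theorem bb_const (H : Hom 𝒜 p μ a f) (hx : ¬ IsVertex 𝒜 x) (hx' : IsFixed 𝒜 x ν)
    (hY : BB 𝒜 a ν x Y) (h : R) : MvPolynomial.constantCoeff (Y h) = x h := by
  refine hom_ind (rg 𝒜 ν) (P := fun h => MvPolynomial.constantCoeff (Y h) = x h) ?_ ?_ ?_ h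
  · rw [map_zero, map_zero, map_zero]
  · intro y y' h1 h2
    rw [map_add, map_add, map_add, h1, h2]
  · intro w y hy
    refine rg_ind (P := fun h => MvPolynomial.constantCoeff (Y h) = x h) ?_ ?_ ?_ hy
    · rw [map_zero, map_zero, map_zero]
    · intro y y' h1 h2
      rw [map_add, map_add, map_add, h1, h2]
    · intro d m _ h hh
      by_cases hm : m = d • ν
      · subst hm
        rw [hY.zero d h hh, MvPolynomial.constantCoeff_C]
      · have h1 : x h = 0 := by
          by_contra hne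
          exact hm (hx' d m h hh hne)
        rw [h1]
        rcases bb_cases H hx hx' hY hh with h2 | ⟨k, hk, hk'⟩
        · rw [h2, map_zero]
        · have hk0 : k ≠ 0 := by
            rintro rfl
            apply hm
            rw [← hk]
            simp
          rw [MvPolynomial.constantCoeff_eq]
          exact hk'.coeff_eq_zero (by simpa using Ne.symm hk0)

theorem bb_comp (H : Hom 𝒜 p μ a f) (hx : ¬ IsVertex 𝒜 x) (hx' : IsFixed 𝒜 x ν)
    (hY : BB 𝒜 a ν x Y) (h : R) : Y (cp (rg 𝒜 ν) (-a) h) =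
      MvPolynomial.homogeneousComponent 1 (Y h) := by
  refine hom_ind (rg 𝒜 ν) (P := fun h => Y (cp (rg 𝒜 ν) (-a) h) =
      MvPolynomial.homogeneousComponent 1 (Y h)) ?_ ?_ ?_ h
  · rw [map_zero, map_zero]
    simp [cp]
  · intro y y' h1 h2
    rw [cp_add, map_add, map_add, map_add, h1, h2]
  · intro w y hy
    by_cases hw : w = -a
    · subst hw
      rw [cp_of_mem (rg 𝒜 ν) hy]
      refine rg_ind (P := fun y => Y y = MvPolynomial.homogeneousComponent 1 (Y y)) ?_ ?_ ?_ hy
      · rw [map_zero, map_zero]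
      · intro y y' h1 h2
        rw [map_add, map_add, ← h1, ← h2]
      · intro d m hm h hh
        have h1 : (Y h).IsHomogeneous 1 := hY.hom d m 1 h hh (by push_cast; linarith)
        rw [MvPolynomial.homogeneousComponent_of_mem
          ((MvPolynomial.mem_homogeneousSubmodule _ _).2 h1), if_pos rfl]
    · rw [cp_of_mem_ne (rg 𝒜 ν) hy hw, map_zero]
      refine rg_ind (P := fun y => 0 = MvPolynomial.homogeneousComponent 1 (Y y)) ?_ ?_ ?_ hy
      · rw [map_zero, map_zero]
      · intro y y' h1 h2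
        rw [map_add, map_add, ← h1, ← h2, add_zero]
      · intro d m hm h hh
        rcases bb_cases H hx hx' hY hh with h2 | ⟨k, hk, hk'⟩
        · rw [h2, map_zero]
        · rw [MvPolynomial.homogeneousComponent_of_mem
            ((MvPolynomial.mem_homogeneousSubmodule _ _).2 hk'), if_neg]
          rintro rfl
          apply hw
          push_cast at hk
          linarith

theorem lead (H : Hom 𝒜 p μ a f) (hx : ¬ IsVertex 𝒜 x) (hx' : IsFixed 𝒜 x ν) {e : ℕ}
    (he : ν = μ + e * a) (hY : BB 𝒜 a ν x Y) (hne : Y f ≠ 0) {s' : ℕ}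
    {Z : R →ₐ[ℂ] MvPolynomial (Fin s') ℂ}
    (hZ0 : ∀ h, MvPolynomial.constantCoeff (Z h) = x h)
    (hZ1 : ∀ η : R →ₗ[ℂ] ℂ, IsTangent x η → HasWeight 𝒜 ν (-a) η → ∃ κ' : Fin s' → ℂ,
        ∀ d : ℕ, ∀ h ∈ 𝒜 (d, d • ν - a),
          η h = ∑ i, κ' i * MvPolynomial.coeff (Finsupp.single i 1) (Z h)) :
    ∃ κ : Fin s' → ℂ, (line κ (Z f)).coeff e ≠ 0 := by
  have hP : (Y f).IsHomogeneous e := hY.hom 1 μ e f H.hf (by rw [one_smul, he])
  obtain ⟨w, hw⟩ : ∃ w, MvPolynomial.eval w (Y f) ≠ 0 := by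
    by_contra hcon
    push Not at hcon
    exact hne (MvPolynomial.funext fun w => by rw [hcon w, map_zero])
  let η : R →ₗ[ℂ] ℂ := (Polynomial.lcoeff ℂ 1).comp ((line w).comp Y).toLinearMap
  have hη : ∀ h, η h = (line w (Y h)).coeff 1 := fun h => rfl
  have h0 : ∀ h, (line w (Y h)).coeff 0 = x h := fun h => by
    rw [line_coeff_zero, bb_const H hx hx' hY]
  have hηt : IsTangent x η := by
    intro b c
    rw [hη, hη, hη, map_mul, map_mul, mul_coeff_one, h0, h0]
    ring
  have hηw : HasWeight 𝒜 ν (-a) η := by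
    intro d m h hh hne'
    rw [hη] at hne'
    rcases bb_cases H hx hx' hY hh with h2 | ⟨k, hk, hk'⟩
    · exfalso
      apply hne'
      rw [h2, map_zero, coeff_zero]
    · rw [line_hom w hk', coeff_C_mul, coeff_X_pow] at hne'
      by_cases hk1 : 1 = k
      · subst hk1
        push_cast at hk
        linarith
      · rw [if_neg hk1, mul_zero] at hne'
        exact absurd rfl hne'
  obtain ⟨κ, hκ⟩ := hZ1 η hηt hηw
  set z : R →ₐ[ℂ] ℂ[X] := (line κ).comp Z with hz
  have hz0 : ∀ h, (z h).coeff 0 = x h := fun h => by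
    rw [hz, AlgHom.comp_apply, line_coeff_zero, hZ0]
  have hz1 : ∀ h ∈ rg 𝒜 ν (-a), (z h).coeff 1 = η h := by
    intro h hh
    refine rg_ind (P := fun h => (z h).coeff 1 = η h) ?_ ?_ ?_ hh
    · rw [map_zero, map_zero, coeff_zero]
    · intro y y' h1 h2
      rw [map_add, map_add, coeff_add, h1, h2]
    · intro d m hm h hh
      have hm' : m = d • ν - a := by linarith
      subst hm'
      rw [hκ d h hh, hz, AlgHom.comp_apply, line_coeff_one]
  choose G hG using fun i => hY.surj (MvPolynomial.X i)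
  set g : Fin s → R := fun i => cp (rg 𝒜 ν) (-a) (G i) with hgdef
  have hgm : ∀ i, g i ∈ rg 𝒜 ν (-a) := fun i => cp_mem _ _ _
  have hg : ∀ i, Y (g i) = MvPolynomial.X i := by
    intro i
    rw [hgdef]
    change Y (cp (rg 𝒜 ν) (-a) (G i)) = _
    rw [bb_comp H hx hx' hY, hG, MvPolynomial.homogeneousComponent_of_mem
      ((MvPolynomial.mem_homogeneousSubmodule _ _).2 (MvPolynomial.isHomogeneous_X ℂ i)),
      if_pos rfl]
  have hq : ∀ i, ∃ q : ℂ[X], z (g i) = X * q := by
    intro i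
    have h1 : X ∣ z (g i) := by
      rw [X_dvd_iff, hz0, ← bb_const H hx hx' hY, hg, MvPolynomial.constantCoeff_X]
    exact h1
  choose q hq using hq
  have hq0 : (fun i => (q i).coeff 0) = w := by
    funext i
    have h1 := hz1 (g i) (hgm i)
    rw [hη, hg, line_X, hq, coeff_X_mul, coeff_mul_X, coeff_C_zero] at h1
    exact h1
  set r := f - MvPolynomial.aeval g (Y f) with hr
  have hYr : Y r = 0 := by
    rw [hr, map_sub, MvPolynomial.comp_aeval_apply]
    have h1 : (fun i => Y (g i)) = MvPolynomial.X := funext hg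
    rw [h1, MvPolynomial.aeval_X_left_apply, sub_self]
  have hrm : r ∈ rg 𝒜 ν (-(e * a)) := by
    refine Submodule.sub_mem _ (mem_rg H.hf (by rw [one_smul, he]; ring)) ?_
    have h1 := aeval_mem_rg hgm hP
    rwa [mul_neg] at h1
  have hzr : X ^ (e + 1) ∣ z r := by
    have h1 := horder_ker H hx hx' z hz0 e (hY.ker r hYr) 1 (-(e * a)) le_rfl
    rwa [one_mul, cp_of_mem (rg 𝒜 ν) hrm] at h1
  refine ⟨κ, ?_⟩
  have h1 : line κ (Z f) = z (MvPolynomial.aeval g (Y f)) + z r := by
    rw [← map_add, hr, add_sub_cancel]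
    rfl
  obtain ⟨c, hc⟩ := hzr
  have h2 : z (MvPolynomial.aeval g (Y f)) = X ^ e * MvPolynomial.aeval q (Y f) := by
    rw [MvPolynomial.comp_aeval_apply, ← aeval_scale hP]
    have h3 : (fun i => z (g i)) = fun i => X * q i := funext hq
    rw [h3]
  rw [h1, h2, hc, coeff_add, coeff_X_pow_mul', coeff_X_pow_mul', if_pos le_rfl,
    if_neg (by omega), add_zero, Nat.sub_self, coeff_zero_aeval, hq0]
  exact hw

end bb

end Vale.Agent.P280.H127
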