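import Vale.Agent.P280.H644.ThmI
import Vale.Agent.P280.H127.Ext4

/-!
P280 (S6): transport of the weight bound and of vector fields from the lowest slope.
-/

open DirectSum Vale.Agent.P280.T Vale.Agent.P280.H644

namespace Vale.Agent.P280.H127

variable {R : Type} [CommRing R] [Algebra ℂ R] {𝒜 : ℕ × ℤ → Submodule ℂ R} [GradedAlgebra 𝒜]

theorem LE_of_low (hX : IsTorusManifold 𝒜) (hN : NefOnRationalCurves 𝒜) {μ a : ℤ} (ha : 0 < a)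
    {f : R} (hf : f ∈ 𝒜 (1, μ)) (hf0 : f ≠ 0)
    (hlow : ∀ (d : ℕ) (m : ℤ), ∀ h ∈ 𝒜 (d, m), h ≠ 0 → d • μ ≤ m)
    (hw : ∀ q : R →ₐ[ℂ] ℂ, ¬ IsVertex 𝒜 q → IsFixed 𝒜 q μ → ∀ χ, TangentWeight 𝒜 q μ χ → χ ≤ a)
    {x : R →ₐ[ℂ] ℂ} {ν : ℤ} (hx : ¬ IsVertex 𝒜 x) (hx' : IsFixed 𝒜 x ν) : LE 𝒜 a x ν :=
  slope_ind hX hf hf0 hlow (P := LE 𝒜 a)
    (fun x hx hx' => LE_of_tangentWeight ha hx' (hw x hx hx')) (LE_step hN) x ν hx hx'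

/-- **(S6 i)** : the weight bound at the fixed points of lowest slope holds at all fixed points. -/
theorem weight_le_of_low (hX : IsTorusManifold 𝒜) (hN : NefOnRationalCurves 𝒜) {μ a : ℤ}
    (ha : 0 < a) {f : R} (hf : f ∈ 𝒜 (1, μ)) (hf0 : f ≠ 0)
    (hlow : ∀ (d : ℕ) (m : ℤ), ∀ h ∈ 𝒜 (d, m), h ≠ 0 → d • μ ≤ m)
    (hw : ∀ q : R →ₐ[ℂ] ℂ, ¬ IsVertex 𝒜 q → IsFixed 𝒜 q μ → ∀ χ, TangentWeight 𝒜 q μ χ → χ ≤ a)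
    {x : R →ₐ[ℂ] ℂ} {ν : ℤ} (hx : ¬ IsVertex 𝒜 x) (hx' : IsFixed 𝒜 x ν) {χ : ℤ}
    (hχ : TangentWeight 𝒜 x ν χ) : χ ≤ a :=
  tangentWeight_le_of_LE (LE_of_low hX hN ha hf hf0 hlow hw hx hx') hχ

/-- **(S6 ii)** : if at the fixed points of lowest slope the tangent vectors of weight `a` are
values of fields of weight `-a`, this is the case at all fixed points. -/
theorem ext_of_low (hX : IsTorusManifold 𝒜) (hN : NefOnRationalCurves 𝒜) {μ a : ℤ}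
    (ha : 0 < a) {f : R} (hf : f ∈ 𝒜 (1, μ)) (hf0 : f ≠ 0)
    (hlow : ∀ (d : ℕ) (m : ℤ), ∀ h ∈ 𝒜 (d, m), h ≠ 0 → d • μ ≤ m)
    (hw : ∀ q : R →ₐ[ℂ] ℂ, ¬ IsVertex 𝒜 q → IsFixed 𝒜 q μ → ∀ χ, TangentWeight 𝒜 q μ χ → χ ≤ a)
    (hbase : ∀ q : R →ₐ[ℂ] ℂ, ¬ IsVertex 𝒜 q → IsFixed 𝒜 q μ → ∀ v : R →ₗ[ℂ] ℂ, IsTangent q v →
      HasWeight 𝒜 μ a v → ∃ D : Derivation ℂ R R,
        (∀ (d : ℕ) (m : ℤ), ∀ h ∈ 𝒜 (d, m), D h ∈ 𝒜 (d, m - a)) ∧ ∀ h, q (D h) = v h)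
    {x : R →ₐ[ℂ] ℂ} {ν : ℤ} (hx : ¬ IsVertex 𝒜 x) (hx' : IsFixed 𝒜 x ν) {v : R →ₗ[ℂ] ℂ}
    (hv : IsTangent x v) (hvw : HasWeight 𝒜 ν a v) : ∃ D : Derivation ℂ R R,
      (∀ (d : ℕ) (m : ℤ), ∀ h ∈ 𝒜 (d, m), D h ∈ 𝒜 (d, m - a)) ∧ ∀ h, x (D h) = v h := by
  have h1 := slope_ind hX hf hf0 hlow (P := fun x ν => Good 𝒜 dg wg x ν a) (fun x hx hx' =>
    good_iff.2 ⟨LE_of_tangentWeight ha hx' (hw x hx hx'), hbase x hx hx'⟩)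
    (fun z ν' ν h0 hα hβ h1 h2 hy => good_step 𝒜 (freeCurves hN) h0 hα hβ h1 h2 hy) x ν hx hx'
  exact (good_iff.1 h1).2 v hv hvw

end Vale.Agent.P280.H127
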